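import Vale.Agent.P154.G.Dom

/-!
# P154, all `d`: the channel does not decrease `ph3W` too much

For `0 ≤ lam < 1` and `e` in the simplex: `lam^3 ph3W e ≤ ph3W (lam e)`.
With `A = al3 e`, `B = cu3 e`, `φ = ph3W e`, `B = A^2 + (1 - A) φ` (`ph3_dom`), `al3 (lam e) = lam^2 A < 1`, `cu3 (lam e) = lam^3 B`
(`al3_smul`, `cu3_smul`), `ph3W (lam e) = (lam^3 B - lam^4 A^2)/(1 - lam^2 A)` (`ph3_eqW`).  So the claim is
`lam^3 φ (1 - lam^2 A) ≤ lam^3 (B - lam A^2)`, i.e. `0 ≤ B - lam A^2 - φ (1 - lam^2 A) = A (1 - lam) (A (1 + ... ))`: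
`B - lam A^2 - φ (1 - lam^2 A) = (1 - lam) A^2 - φ A (1 - lam^2) = A (1 - lam) (A - (1 + lam) φ)` and `(1 + lam) φ ≤ 2 φ ≤ ... ≤ A`:
with `s^2 = A`: `φ ≤ s^3/(1+s)` and `2 s^3 ≤ s^2 (1 + s)`; if `φ ≤ 0` trivial.
-/

namespace Vale.Agent.P154

theorem ph3_scale (lam x y z : ℝ) (h0 : 0 ≤ lam) (h1 : lam < 1) (h : x + y + z = 0)
    (hx : -1 ≤ x) (hy : -1 ≤ y) (hz : -1 ≤ z) :
    lam ^ 3 * ph3W x y z ≤ ph3W (lam * x) (lam * y) (lam * z) := by
  obtain ⟨s, hs0, hs1, hsA, hup, -, -, hB⟩ := ph3_dom x y z h hx hy hz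
  set A := al3 x y z with hA
  set B := cu3 x y z with hBdef
  set φ := ph3W x y z with hφ
  have hA0 : 0 ≤ A := by rw [← hsA]; positivity
  have hA1 : A ≤ 1 := by rw [← hsA]; nlinarith
  have hl2 : lam ^ 2 < 1 := by nlinarith
  have hlA : lam ^ 2 * A < 1 := by nlinarith
  have hsum : lam * x + lam * y + lam * z = 0 := by
    have : lam * x + lam * y + lam * z = lam * (x + y + z) := by ring
    rw [this, h, mul_zero]
  have hal : al3 (lam * x) (lam * y) (lam * z) = lam ^ 2 * A := al3_smul lam x y z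
  have hcu : cu3 (lam * x) (lam * y) (lam * z) = lam ^ 3 * B := cu3_smul lam x y z
  have hlt : al3 (lam * x) (lam * y) (lam * z) < 1 := by rw [hal]; exact hlA
  rw [ph3_eqW _ _ _ hsum hlt, hal, hcu]
  have hden : 0 < 1 - lam ^ 2 * A := by linarith
  rw [le_div_iff₀ hden]
  -- key: `(1 + lam) φ ≤ A`
  have h2 : 2 * φ ≤ A := by
    have h3 : 0 ≤ (1 + s) * (A - 2 * φ) := by
      have : (1 + s) * (A - 2 * φ) = (1 + s) * s ^ 2 - 2 * ((1 + s) * φ) := by rw [← hsA]; ring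
      rw [this]
      nlinarith [mul_nonneg (sq_nonneg s) (sub_nonneg.2 hs1)]
    have h4 : 0 < 1 + s := by linarith
    have := nonneg_of_mul_nonneg_right h3 h4
    linarith
  have hkey : 0 ≤ A - (1 + lam) * φ := by
    rcases le_total φ 0 with hneg | hpos
    · nlinarith [mul_nonneg (by linarith : (0:ℝ) ≤ 1 + lam) (neg_nonneg.2 hneg)]
    · nlinarith [mul_nonneg (by linarith : (0:ℝ) ≤ 1 - lam) hpos]
  have hid : lam ^ 3 * B - (lam ^ 2 * A) ^ 2 - lam ^ 3 * φ * (1 - lam ^ 2 * A)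
      = lam ^ 3 * (A * ((1 - lam) * (A - (1 + lam) * φ))) := by
    rw [hB]; ring
  have hnn : 0 ≤ lam ^ 3 * (A * ((1 - lam) * (A - (1 + lam) * φ))) := by
    have : 0 ≤ 1 - lam := by linarith
    positivity
  linarith

end Vale.Agent.P154
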