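import Vale.Agent.P154.G.Defs

namespace Vale.Agent.P154

/-- `T0`, `E1`: `GX s t φ ψ = s^2 t^2 T0 s t + φ t^2 E1 s t + ψ s^2 E1 t s`. -/
noncomputable def T0 (s t : ℝ) : ℝ := 9 / 10 * D1 s t - 2 * (1 - s ^ 2) * (1 - t ^ 2) * (s * t)

noncomputable def E1 (s t : ℝ) : ℝ := (1 - t ^ 2) * (2 * (1 - s ^ 2) - 3 / 2 * D1 s t)

end Vale.Agent.P154
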