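import Vale.Agent.P154.G.CornerDefs

/-!
# P154, all `d`: a corner inequality (generated: Bernstein coefficients on the rectangle are nonnegative)
-/

namespace Vale.Agent.P154

set_option maxHeartbeats 1000000 in
theorem corner_hi_hi (s t : ℝ) (hs0 : 0 ≤ s) (hs1 : s ≤ 1) (ht0 : 0 ≤ t) (ht1 : t ≤ 1) :
    0 ≤ (1 + s) * (1 + t) * T0 s t + s * (1 + t) * E1 s t + (1 + s) * t * E1 t s := by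
  obtain ⟨p, hp⟩ : ∃ p : ℝ, p = s := ⟨_, rfl⟩
  obtain ⟨q, hq⟩ : ∃ q : ℝ, q = 1 - s := ⟨_, rfl⟩
  obtain ⟨r, hr⟩ : ∃ r : ℝ, r = t := ⟨_, rfl⟩
  obtain ⟨u, hu⟩ : ∃ u : ℝ, u = 1 - t := ⟨_, rfl⟩
  have hp0 : 0 ≤ p := by linarith
  have hq0 : 0 ≤ q := by linarith
  have hr0 : 0 ≤ r := by linarith
  have hu0 : 0 ≤ u := by linarith
  have b0 : (0:ℝ) ≤ (9 / 10) * t ^ 0 + (7 / 5) * t ^ 1 + (-2) * t ^ 3 := by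
    have e : ((9 / 10) * t ^ 0 + (7 / 5) * t ^ 1 + (-2) * t ^ 3 : ℝ) = (9 / 10) * (r ^ 0 * u ^ 6) + (34 / 5) * (r ^ 1 * u ^ 5) + (41 / 2) * (r ^ 2 * u ^ 4) + 30 * (r ^ 3 * u ^ 3) + (43 / 2) * (r ^ 4 * u ^ 2) + (32 / 5) * (r ^ 5 * u ^ 1) + (3 / 10) * (r ^ 6 * u ^ 0) := by
      rw [hr, hu]; ring
    rw [e]; positivity
  have b1 : (0:ℝ) ≤ (34 / 5) * t ^ 0 + (83 / 10) * t ^ 1 + (-(5 / 2)) * t ^ 2 + (-(25 / 2)) * t ^ 3 + 2 * t ^ 4 := by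
    have e : ((34 / 5) * t ^ 0 + (83 / 10) * t ^ 1 + (-(5 / 2)) * t ^ 2 + (-(25 / 2)) * t ^ 3 + 2 * t ^ 4 : ℝ) = (34 / 5) * (r ^ 0 * u ^ 6) + (491 / 10) * (r ^ 1 * u ^ 5) + 141 * (r ^ 2 * u ^ 4) + (393 / 2) * (r ^ 3 * u ^ 3) + (269 / 2) * (r ^ 4 * u ^ 2) + (194 / 5) * (r ^ 5 * u ^ 1) + (21 / 10) * (r ^ 6 * u ^ 0) := by
      rw [hr, hu]; ring
    rw [e]; positivity
  have b2 : (0:ℝ) ≤ (41 / 2) * t ^ 0 + 18 * t ^ 1 + (-(86 / 5)) * t ^ 2 + (-(267 / 10)) * t ^ 3 + 12 * t ^ 4 := by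
    have e : ((41 / 2) * t ^ 0 + 18 * t ^ 1 + (-(86 / 5)) * t ^ 2 + (-(267 / 10)) * t ^ 3 + 12 * t ^ 4 : ℝ) = (41 / 2) * (r ^ 0 * u ^ 6) + 141 * (r ^ 1 * u ^ 5) + (3803 / 10) * (r ^ 2 * u ^ 4) + (989 / 2) * (r ^ 3 * u ^ 3) + (1581 / 5) * (r ^ 4 * u ^ 2) + (881 / 10) * (r ^ 5 * u ^ 1) + (33 / 5) * (r ^ 6 * u ^ 0) := by
      rw [hr, hu]; ring
    rw [e]; positivity
  have b3 : (0:ℝ) ≤ 30 * t ^ 0 + (33 / 2) * t ^ 1 + (-38) * t ^ 2 + (-(117 / 10)) * t ^ 3 + (203 / 10) * t ^ 4 + (-(9 / 2)) * t ^ 5 := by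
    have e : (30 * t ^ 0 + (33 / 2) * t ^ 1 + (-38) * t ^ 2 + (-(117 / 10)) * t ^ 3 + (203 / 10) * t ^ 4 + (-(9 / 2)) * t ^ 5 : ℝ) = 30 * (r ^ 0 * u ^ 6) + (393 / 2) * (r ^ 1 * u ^ 5) + (989 / 2) * (r ^ 2 * u ^ 4) + (6013 / 10) * (r ^ 3 * u ^ 3) + (1861 / 5) * (r ^ 4 * u ^ 2) + (223 / 2) * (r ^ 5 * u ^ 1) + (63 / 5) * (r ^ 6 * u ^ 0) := by
      rw [hr, hu]; ring
    rw [e]; positivity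
  have b4 : (0:ℝ) ≤ (43 / 2) * t ^ 0 + (11 / 2) * t ^ 1 + (-(169 / 5)) * t ^ 2 + (112 / 5) * t ^ 3 + (27 / 10) * t ^ 4 + (-(21 / 2)) * t ^ 5 + 3 * t ^ 6 := by
    have e : ((43 / 2) * t ^ 0 + (11 / 2) * t ^ 1 + (-(169 / 5)) * t ^ 2 + (112 / 5) * t ^ 3 + (27 / 10) * t ^ 4 + (-(21 / 2)) * t ^ 5 + 3 * t ^ 6 : ℝ) = (43 / 2) * (r ^ 0 * u ^ 6) + (269 / 2) * (r ^ 1 * u ^ 5) + (1581 / 5) * (r ^ 2 * u ^ 4) + (1861 / 5) * (r ^ 3 * u ^ 3) + (1223 / 5) * (r ^ 4 * u ^ 2) + (417 / 5) * (r ^ 5 * u ^ 1) + (54 / 5) * (r ^ 6 * u ^ 0) := by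
      rw [hr, hu]; ring
    rw [e]; positivity
  have b5 : (0:ℝ) ≤ (32 / 5) * t ^ 0 + (2 / 5) * t ^ 1 + (-(99 / 10)) * t ^ 2 + (191 / 10) * t ^ 3 + (-(29 / 2)) * t ^ 4 + (-(15 / 2)) * t ^ 5 + 6 * t ^ 6 := by
    have e : ((32 / 5) * t ^ 0 + (2 / 5) * t ^ 1 + (-(99 / 10)) * t ^ 2 + (191 / 10) * t ^ 3 + (-(29 / 2)) * t ^ 4 + (-(15 / 2)) * t ^ 5 + 6 * t ^ 6 : ℝ) = (32 / 5) * (r ^ 0 * u ^ 6) + (194 / 5) * (r ^ 1 * u ^ 5) + (881 / 10) * (r ^ 2 * u ^ 4) + (223 / 2) * (r ^ 3 * u ^ 3) + (417 / 5) * (r ^ 4 * u ^ 2) + (108 / 5) * (r ^ 5 * u ^ 1) := by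
      rw [hr, hu]; ring
    rw [e]; positivity
  have b6 : (0:ℝ) ≤ (3 / 10) * t ^ 0 + (3 / 10) * t ^ 1 + (3 / 5) * t ^ 2 + (6 / 5) * t ^ 3 + (-(39 / 10)) * t ^ 4 + (-(3 / 2)) * t ^ 5 + 3 * t ^ 6 := by
    have e : ((3 / 10) * t ^ 0 + (3 / 10) * t ^ 1 + (3 / 5) * t ^ 2 + (6 / 5) * t ^ 3 + (-(39 / 10)) * t ^ 4 + (-(3 / 2)) * t ^ 5 + 3 * t ^ 6 : ℝ) = (3 / 10) * (r ^ 0 * u ^ 6) + (21 / 10) * (r ^ 1 * u ^ 5) + (33 / 5) * (r ^ 2 * u ^ 4) + (63 / 5) * (r ^ 3 * u ^ 3) + (54 / 5) * (r ^ 4 * u ^ 2) := by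
      rw [hr, hu]; ring
    rw [e]; positivity
  have key : (1 + s) * (1 + t) * T0 s t + s * (1 + t) * E1 s t + (1 + s) * t * E1 t s =
      p ^ 0 * q ^ 6 * ((9 / 10) * t ^ 0 + (7 / 5) * t ^ 1 + (-2) * t ^ 3) +
      p ^ 1 * q ^ 5 * ((34 / 5) * t ^ 0 + (83 / 10) * t ^ 1 + (-(5 / 2)) * t ^ 2 + (-(25 / 2)) * t ^ 3 + 2 * t ^ 4) +
      p ^ 2 * q ^ 4 * ((41 / 2) * t ^ 0 + 18 * t ^ 1 + (-(86 / 5)) * t ^ 2 + (-(267 / 10)) * t ^ 3 + 12 * t ^ 4) +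
      p ^ 3 * q ^ 3 * (30 * t ^ 0 + (33 / 2) * t ^ 1 + (-38) * t ^ 2 + (-(117 / 10)) * t ^ 3 + (203 / 10) * t ^ 4 + (-(9 / 2)) * t ^ 5) +
      p ^ 4 * q ^ 2 * ((43 / 2) * t ^ 0 + (11 / 2) * t ^ 1 + (-(169 / 5)) * t ^ 2 + (112 / 5) * t ^ 3 + (27 / 10) * t ^ 4 + (-(21 / 2)) * t ^ 5 + 3 * t ^ 6) +
      p ^ 5 * q ^ 1 * ((32 / 5) * t ^ 0 + (2 / 5) * t ^ 1 + (-(99 / 10)) * t ^ 2 + (191 / 10) * t ^ 3 + (-(29 / 2)) * t ^ 4 + (-(15 / 2)) * t ^ 5 + 6 * t ^ 6) +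
      p ^ 6 * q ^ 0 * ((3 / 10) * t ^ 0 + (3 / 10) * t ^ 1 + (3 / 5) * t ^ 2 + (6 / 5) * t ^ 3 + (-(39 / 10)) * t ^ 4 + (-(3 / 2)) * t ^ 5 + 3 * t ^ 6) := by
    rw [hp, hq]
    unfold T0 E1 D1
    ring
  rw [key]
  have c0 := mul_nonneg (mul_nonneg (pow_nonneg hp0 0) (pow_nonneg hq0 6)) b0
  have c1 := mul_nonneg (mul_nonneg (pow_nonneg hp0 1) (pow_nonneg hq0 5)) b1
  have c2 := mul_nonneg (mul_nonneg (pow_nonneg hp0 2) (pow_nonneg hq0 4)) b2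
  have c3 := mul_nonneg (mul_nonneg (pow_nonneg hp0 3) (pow_nonneg hq0 3)) b3
  have c4 := mul_nonneg (mul_nonneg (pow_nonneg hp0 4) (pow_nonneg hq0 2)) b4
  have c5 := mul_nonneg (mul_nonneg (pow_nonneg hp0 5) (pow_nonneg hq0 1)) b5
  have c6 := mul_nonneg (mul_nonneg (pow_nonneg hp0 6) (pow_nonneg hq0 0)) b6
  linarith [c0, c1, c2, c3, c4, c5, c6]

end Vale.Agent.P154
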