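import Vale.Agent.P154.G.CornerDefs

/-!
# P154, all `d`: a corner inequality (generated: Bernstein coefficients on the rectangle are nonnegative)
-/

namespace Vale.Agent.P154

set_option maxHeartbeats 1000000 in
theorem corner_hi_lo1 (s t : ℝ) (hs0 : 0 ≤ s) (hs1 : s ≤ 1) (ht0 : 0 ≤ t) (ht1 : t ≤ 1 / 2) :
    0 ≤ (1 + s) * (1 - t) * T0 s t + s * (1 - t) * E1 s t + (1 + s) * (-t) * E1 t s := by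
  obtain ⟨p, hp⟩ : ∃ p : ℝ, p = s := ⟨_, rfl⟩
  obtain ⟨q, hq⟩ : ∃ q : ℝ, q = 1 - s := ⟨_, rfl⟩
  obtain ⟨r, hr⟩ : ∃ r : ℝ, r = 2 * t := ⟨_, rfl⟩
  obtain ⟨u, hu⟩ : ∃ u : ℝ, u = 1 - 2 * t := ⟨_, rfl⟩
  have hp0 : 0 ≤ p := by linarith
  have hq0 : 0 ≤ q := by linarith
  have hr0 : 0 ≤ r := by linarith
  have hu0 : 0 ≤ u := by linarith
  have b0 : (0:ℝ) ≤ (9 / 10) * t ^ 0 + (-(7 / 5)) * t ^ 1 + 2 * t ^ 3 := by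
    have e : ((9 / 10) * t ^ 0 + (-(7 / 5)) * t ^ 1 + 2 * t ^ 3 : ℝ) = (9 / 10) * (r ^ 0 * u ^ 8) + (13 / 2) * (r ^ 1 * u ^ 7) + (203 / 10) * (r ^ 2 * u ^ 6) + (719 / 20) * (r ^ 3 * u ^ 5) + (159 / 4) * (r ^ 4 * u ^ 4) + (142 / 5) * (r ^ 5 * u ^ 3) + 13 * (r ^ 6 * u ^ 2) + (71 / 20) * (r ^ 7 * u ^ 1) + (9 / 20) * (r ^ 8 * u ^ 0) := by
      rw [hr, hu]; ring
    rw [e]; positivity
  have b1 : (0:ℝ) ≤ (43 / 5) * t ^ 0 + (-(151 / 10)) * t ^ 1 + (3 / 2) * t ^ 2 + (41 / 2) * t ^ 3 + (-2) * t ^ 4 := by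
    have e : ((43 / 5) * t ^ 0 + (-(151 / 10)) * t ^ 1 + (3 / 2) * t ^ 2 + (41 / 2) * t ^ 3 + (-2) * t ^ 4 : ℝ) = (43 / 5) * (r ^ 0 * u ^ 8) + (245 / 4) * (r ^ 1 * u ^ 7) + (7533 / 40) * (r ^ 2 * u ^ 6) + (26229 / 80) * (r ^ 3 * u ^ 5) + (5697 / 16) * (r ^ 4 * u ^ 4) + (9999 / 40) * (r ^ 5 * u ^ 3) + (451 / 4) * (r ^ 6 * u ^ 2) + (2441 / 80) * (r ^ 7 * u ^ 1) + (309 / 80) * (r ^ 8 * u ^ 0) := by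
      rw [hr, hu]; ring
    rw [e]; positivity
  have b2 : (0:ℝ) ≤ 35 * t ^ 0 + (-68) * t ^ 1 + (49 / 5) * t ^ 2 + (857 / 10) * t ^ 3 + (-16) * t ^ 4 := by
    have e : (35 * t ^ 0 + (-68) * t ^ 1 + (49 / 5) * t ^ 2 + (857 / 10) * t ^ 3 + (-16) * t ^ 4 : ℝ) = 35 * (r ^ 0 * u ^ 8) + 246 * (r ^ 1 * u ^ 7) + (14889 / 20) * (r ^ 2 * u ^ 6) + (101713 / 80) * (r ^ 3 * u ^ 5) + (21589 / 16) * (r ^ 4 * u ^ 4) + (7377 / 8) * (r ^ 5 * u ^ 3) + (3231 / 8) * (r ^ 6 * u ^ 2) + (8501 / 80) * (r ^ 7 * u ^ 1) + (1053 / 80) * (r ^ 8 * u ^ 0) := by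
      rw [hr, hu]; ring
    rw [e]; positivity
  have b3 : (0:ℝ) ≤ (389 / 5) * t ^ 0 + (-(824 / 5)) * t ^ 1 + (291 / 10) * t ^ 2 + (926 / 5) * t ^ 3 + (-(553 / 10)) * t ^ 4 + (9 / 2) * t ^ 5 := by
    have e : ((389 / 5) * t ^ 0 + (-(824 / 5)) * t ^ 1 + (291 / 10) * t ^ 2 + (926 / 5) * t ^ 3 + (-(553 / 10)) * t ^ 4 + (9 / 2) * t ^ 5 : ℝ) = (389 / 5) * (r ^ 0 * u ^ 8) + 540 * (r ^ 1 * u ^ 7) + (12871 / 8) * (r ^ 2 * u ^ 6) + (13466 / 5) * (r ^ 3 * u ^ 5) + (445347 / 160) * (r ^ 4 * u ^ 4) + (587557 / 320) * (r ^ 5 * u ^ 3) + (245859 / 320) * (r ^ 6 * u ^ 2) + (61311 / 320) * (r ^ 7 * u ^ 1) + (7203 / 320) * (r ^ 8 * u ^ 0) := by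
      rw [hr, hu]; ring
    rw [e]; positivity
  have b4 : (0:ℝ) ≤ 102 * t ^ 0 + (-(465 / 2)) * t ^ 1 + 49 * t ^ 2 + (2193 / 10) * t ^ 3 + (-(1003 / 10)) * t ^ 4 + (51 / 2) * t ^ 5 + (-3) * t ^ 6 := by
    have e : (102 * t ^ 0 + (-(465 / 2)) * t ^ 1 + 49 * t ^ 2 + (2193 / 10) * t ^ 3 + (-(1003 / 10)) * t ^ 4 + (51 / 2) * t ^ 5 + (-3) * t ^ 6 : ℝ) = 102 * (r ^ 0 * u ^ 8) + (2799 / 4) * (r ^ 1 * u ^ 7) + (4109 / 2) * (r ^ 2 * u ^ 6) + (269733 / 80) * (r ^ 3 * u ^ 5) + (541727 / 160) * (r ^ 4 * u ^ 4) + (684191 / 320) * (r ^ 5 * u ^ 3) + (133977 / 160) * (r ^ 6 * u ^ 2) + (60811 / 320) * (r ^ 7 * u ^ 1) + (3183 / 160) * (r ^ 8 * u ^ 0) := by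
      rw [hr, hu]; ring
    rw [e]; positivity
  have b5 : (0:ℝ) ≤ (397 / 5) * t ^ 0 + (-(1919 / 10)) * t ^ 1 + (97 / 2) * t ^ 2 + (691 / 5) * t ^ 3 + (-(506 / 5)) * t ^ 4 + 57 * t ^ 5 + (-12) * t ^ 6 := by
    have e : ((397 / 5) * t ^ 0 + (-(1919 / 10)) * t ^ 1 + (97 / 2) * t ^ 2 + (691 / 5) * t ^ 3 + (-(506 / 5)) * t ^ 4 + 57 * t ^ 5 + (-12) * t ^ 6 : ℝ) = (397 / 5) * (r ^ 0 * u ^ 8) + (2157 / 4) * (r ^ 1 * u ^ 7) + (62547 / 40) * (r ^ 2 * u ^ 6) + (100859 / 40) * (r ^ 3 * u ^ 5) + (98467 / 40) * (r ^ 4 * u ^ 4) + (236781 / 160) * (r ^ 5 * u ^ 3) + (84813 / 160) * (r ^ 6 * u ^ 2) + (3275 / 32) * (r ^ 7 * u ^ 1) + (1299 / 160) * (r ^ 8 * u ^ 0) := by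
      rw [hr, hu]; ring
    rw [e]; positivity
  have b6 : (0:ℝ) ≤ (173 / 5) * t ^ 0 + (-(433 / 5)) * t ^ 1 + 27 * t ^ 2 + (199 / 5) * t ^ 3 + (-(299 / 5)) * t ^ 4 + 63 * t ^ 5 + (-18) * t ^ 6 := by
    have e : ((173 / 5) * t ^ 0 + (-(433 / 5)) * t ^ 1 + 27 * t ^ 2 + (199 / 5) * t ^ 3 + (-(299 / 5)) * t ^ 4 + 63 * t ^ 5 + (-18) * t ^ 6 : ℝ) = (173 / 5) * (r ^ 0 * u ^ 8) + (467 / 2) * (r ^ 1 * u ^ 7) + (13449 / 20) * (r ^ 2 * u ^ 6) + (42951 / 40) * (r ^ 3 * u ^ 5) + (82311 / 80) * (r ^ 4 * u ^ 4) + (95019 / 160) * (r ^ 5 * u ^ 3) + (1937 / 10) * (r ^ 6 * u ^ 2) + (943 / 32) * (r ^ 7 * u ^ 1) + (39 / 40) * (r ^ 8 * u ^ 0) := by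
      rw [hr, hu]; ring
    rw [e]; positivity
  have b7 : (0:ℝ) ≤ 7 * t ^ 0 + (-17) * t ^ 1 + (73 / 10) * t ^ 2 + (29 / 10) * t ^ 3 + (-(227 / 10)) * t ^ 4 + (69 / 2) * t ^ 5 + (-12) * t ^ 6 := by
    have e : (7 * t ^ 0 + (-17) * t ^ 1 + (73 / 10) * t ^ 2 + (29 / 10) * t ^ 3 + (-(227 / 10)) * t ^ 4 + (69 / 2) * t ^ 5 + (-12) * t ^ 6 : ℝ) = 7 * (r ^ 0 * u ^ 8) + (95 / 2) * (r ^ 1 * u ^ 7) + (5533 / 40) * (r ^ 2 * u ^ 6) + (3597 / 16) * (r ^ 3 * u ^ 5) + (35243 / 160) * (r ^ 4 * u ^ 4) + (41609 / 320) * (r ^ 5 * u ^ 3) + (13771 / 320) * (r ^ 6 * u ^ 2) + (2063 / 320) * (r ^ 7 * u ^ 1) + (51 / 320) * (r ^ 8 * u ^ 0) := by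
      rw [hr, hu]; ring
    rw [e]; positivity
  have b8 : (0:ℝ) ≤ (3 / 10) * t ^ 0 + (-(3 / 10)) * t ^ 1 + (3 / 5) * t ^ 2 + (-(51 / 10)) * t ^ 4 + (15 / 2) * t ^ 5 + (-3) * t ^ 6 := by
    have e : ((3 / 10) * t ^ 0 + (-(3 / 10)) * t ^ 1 + (3 / 5) * t ^ 2 + (-(51 / 10)) * t ^ 4 + (15 / 2) * t ^ 5 + (-3) * t ^ 6 : ℝ) = (3 / 10) * (r ^ 0 * u ^ 8) + (9 / 4) * (r ^ 1 * u ^ 7) + (15 / 2) * (r ^ 2 * u ^ 6) + (291 / 20) * (r ^ 3 * u ^ 5) + (2829 / 160) * (r ^ 4 * u ^ 4) + (4323 / 320) * (r ^ 5 * u ^ 3) + (999 / 160) * (r ^ 6 * u ^ 2) + (507 / 320) * (r ^ 7 * u ^ 1) + (27 / 160) * (r ^ 8 * u ^ 0) := by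
      rw [hr, hu]; ring
    rw [e]; positivity
  have key : (1 + s) * (1 - t) * T0 s t + s * (1 - t) * E1 s t + (1 + s) * (-t) * E1 t s =
      p ^ 0 * q ^ 8 * ((9 / 10) * t ^ 0 + (-(7 / 5)) * t ^ 1 + 2 * t ^ 3) +
      p ^ 1 * q ^ 7 * ((43 / 5) * t ^ 0 + (-(151 / 10)) * t ^ 1 + (3 / 2) * t ^ 2 + (41 / 2) * t ^ 3 + (-2) * t ^ 4) +
      p ^ 2 * q ^ 6 * (35 * t ^ 0 + (-68) * t ^ 1 + (49 / 5) * t ^ 2 + (857 / 10) * t ^ 3 + (-16) * t ^ 4) +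
      p ^ 3 * q ^ 5 * ((389 / 5) * t ^ 0 + (-(824 / 5)) * t ^ 1 + (291 / 10) * t ^ 2 + (926 / 5) * t ^ 3 + (-(553 / 10)) * t ^ 4 + (9 / 2) * t ^ 5) +
      p ^ 4 * q ^ 4 * (102 * t ^ 0 + (-(465 / 2)) * t ^ 1 + 49 * t ^ 2 + (2193 / 10) * t ^ 3 + (-(1003 / 10)) * t ^ 4 + (51 / 2) * t ^ 5 + (-3) * t ^ 6) +
      p ^ 5 * q ^ 3 * ((397 / 5) * t ^ 0 + (-(1919 / 10)) * t ^ 1 + (97 / 2) * t ^ 2 + (691 / 5) * t ^ 3 + (-(506 / 5)) * t ^ 4 + 57 * t ^ 5 + (-12) * t ^ 6) +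
      p ^ 6 * q ^ 2 * ((173 / 5) * t ^ 0 + (-(433 / 5)) * t ^ 1 + 27 * t ^ 2 + (199 / 5) * t ^ 3 + (-(299 / 5)) * t ^ 4 + 63 * t ^ 5 + (-18) * t ^ 6) +
      p ^ 7 * q ^ 1 * (7 * t ^ 0 + (-17) * t ^ 1 + (73 / 10) * t ^ 2 + (29 / 10) * t ^ 3 + (-(227 / 10)) * t ^ 4 + (69 / 2) * t ^ 5 + (-12) * t ^ 6) +
      p ^ 8 * q ^ 0 * ((3 / 10) * t ^ 0 + (-(3 / 10)) * t ^ 1 + (3 / 5) * t ^ 2 + (-(51 / 10)) * t ^ 4 + (15 / 2) * t ^ 5 + (-3) * t ^ 6) := by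
    rw [hp, hq]
    unfold T0 E1 D1
    ring
  rw [key]
  have c0 := mul_nonneg (mul_nonneg (pow_nonneg hp0 0) (pow_nonneg hq0 8)) b0
  have c1 := mul_nonneg (mul_nonneg (pow_nonneg hp0 1) (pow_nonneg hq0 7)) b1
  have c2 := mul_nonneg (mul_nonneg (pow_nonneg hp0 2) (pow_nonneg hq0 6)) b2
  have c3 := mul_nonneg (mul_nonneg (pow_nonneg hp0 3) (pow_nonneg hq0 5)) b3
  have c4 := mul_nonneg (mul_nonneg (pow_nonneg hp0 4) (pow_nonneg hq0 4)) b4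
  have c5 := mul_nonneg (mul_nonneg (pow_nonneg hp0 5) (pow_nonneg hq0 3)) b5
  have c6 := mul_nonneg (mul_nonneg (pow_nonneg hp0 6) (pow_nonneg hq0 2)) b6
  have c7 := mul_nonneg (mul_nonneg (pow_nonneg hp0 7) (pow_nonneg hq0 1)) b7
  have c8 := mul_nonneg (mul_nonneg (pow_nonneg hp0 8) (pow_nonneg hq0 0)) b8
  linarith [c0, c1, c2, c3, c4, c5, c6, c7, c8]

end Vale.Agent.P154
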