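import Vale.Agent.P154.G.CornerDefs

/-!
# P154, all `d`: a corner inequality (generated: Bernstein coefficients on the rectangle are nonnegative)
-/

namespace Vale.Agent.P154

set_option maxHeartbeats 1000000 in
theorem corner_hi_lo2 (s t : ℝ) (hs0 : 0 ≤ s) (hs1 : s ≤ 1) (ht0 : 1 / 2 ≤ t) (ht1 : t ≤ 1) :
    0 ≤ (1 + s) * t ^ 2 * T0 s t + s * t ^ 2 * E1 s t + (1 + s) * (t ^ 2 - 1 / 2) * E1 t s := by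
  obtain ⟨p, hp⟩ : ∃ p : ℝ, p = s := ⟨_, rfl⟩
  obtain ⟨q, hq⟩ : ∃ q : ℝ, q = 1 - s := ⟨_, rfl⟩
  obtain ⟨r, hr⟩ : ∃ r : ℝ, r = 2 * t - 1 := ⟨_, rfl⟩
  obtain ⟨u, hu⟩ : ∃ u : ℝ, u = 2 - 2 * t := ⟨_, rfl⟩
  have hp0 : 0 ≤ p := by linarith
  have hq0 : 0 ≤ q := by linarith
  have hr0 : 0 ≤ r := by linarith
  have hu0 : 0 ≤ u := by linarith
  have b0 : (0:ℝ) ≤ (-(1 / 4)) * t ^ 0 + (12 / 5) * t ^ 2 + (-2) * t ^ 4 := by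
    have e : ((-(1 / 4)) * t ^ 0 + (12 / 5) * t ^ 2 + (-2) * t ^ 4 : ℝ) = (9 / 40) * (r ^ 0 * u ^ 9) + (109 / 40) * (r ^ 1 * u ^ 8) + (271 / 20) * (r ^ 2 * u ^ 7) + (739 / 20) * (r ^ 3 * u ^ 6) + (2451 / 40) * (r ^ 4 * u ^ 5) + (2559 / 40) * (r ^ 5 * u ^ 4) + (208 / 5) * (r ^ 6 * u ^ 3) + (79 / 5) * (r ^ 7 * u ^ 2) + (59 / 20) * (r ^ 8 * u ^ 1) + (3 / 20) * (r ^ 9 * u ^ 0) := by
      rw [hr, hu]; ring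
    rw [e]; positivity
  have b1 : (0:ℝ) ≤ (-(9 / 4)) * t ^ 0 + (221 / 10) * t ^ 2 + (-2) * t ^ 3 + (-(37 / 2)) * t ^ 4 + 2 * t ^ 5 := by
    have e : ((-(9 / 4)) * t ^ 0 + (221 / 10) * t ^ 2 + (-2) * t ^ 3 + (-(37 / 2)) * t ^ 4 + 2 * t ^ 5 : ℝ) = (309 / 160) * (r ^ 0 * u ^ 9) + (3739 / 160) * (r ^ 1 * u ^ 8) + (9271 / 80) * (r ^ 2 * u ^ 7) + (25189 / 80) * (r ^ 3 * u ^ 6) + (83201 / 160) * (r ^ 4 * u ^ 5) + (86519 / 160) * (r ^ 5 * u ^ 4) + (14021 / 40) * (r ^ 6 * u ^ 3) + (5323 / 40) * (r ^ 7 * u ^ 2) + (501 / 20) * (r ^ 8 * u ^ 1) + (27 / 20) * (r ^ 9 * u ^ 0) := by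
      rw [hr, hu]; ring
    rw [e]; positivity
  have b2 : (0:ℝ) ≤ (-(17 / 2)) * t ^ 0 + (335 / 4) * t ^ 2 + (-16) * t ^ 3 + (-(697 / 10)) * t ^ 4 + 16 * t ^ 5 := by
    have e : ((-(17 / 2)) * t ^ 0 + (335 / 4) * t ^ 2 + (-16) * t ^ 3 + (-(697 / 10)) * t ^ 4 + 16 * t ^ 5 : ℝ) = (1053 / 160) * (r ^ 0 * u ^ 9) + (12829 / 160) * (r ^ 1 * u ^ 8) + (15933 / 40) * (r ^ 2 * u ^ 7) + (5408 / 5) * (r ^ 3 * u ^ 6) + (285413 / 160) * (r ^ 4 * u ^ 5) + (296573 / 160) * (r ^ 5 * u ^ 4) + (96317 / 80) * (r ^ 6 * u ^ 3) + (36911 / 80) * (r ^ 7 * u ^ 2) + (448 / 5) * (r ^ 8 * u ^ 1) + (111 / 20) * (r ^ 9 * u ^ 0) := by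
      rw [hr, hu]; ring
    rw [e]; positivity
  have b3 : (0:ℝ) ≤ (-(35 / 2)) * t ^ 0 + (3341 / 20) * t ^ 2 + (-(101 / 2)) * t ^ 3 + (-(657 / 5)) * t ^ 4 + (254 / 5) * t ^ 5 + (-(9 / 2)) * t ^ 6 := by
    have e : ((-(35 / 2)) * t ^ 0 + (3341 / 20) * t ^ 2 + (-(101 / 2)) * t ^ 3 + (-(657 / 5)) * t ^ 4 + (254 / 5) * t ^ 5 + (-(9 / 2)) * t ^ 6 : ℝ) = (7203 / 640) * (r ^ 0 * u ^ 9) + (89949 / 640) * (r ^ 1 * u ^ 8) + (452841 / 640) * (r ^ 2 * u ^ 7) + (1240563 / 640) * (r ^ 3 * u ^ 6) + (64451 / 20) * (r ^ 4 * u ^ 5) + (541261 / 160) * (r ^ 5 * u ^ 4) + (44679 / 20) * (r ^ 6 * u ^ 3) + (70649 / 80) * (r ^ 7 * u ^ 2) + (3671 / 20) * (r ^ 8 * u ^ 1) + (279 / 20) * (r ^ 9 * u ^ 0) := by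
      rw [hr, hu]; ring
    rw [e]; positivity
  have b4 : (0:ℝ) ≤ (-(85 / 4)) * t ^ 0 + (747 / 4) * t ^ 2 + (-79) * t ^ 3 + (-(247 / 2)) * t ^ 4 + (389 / 5) * t ^ 5 + (-(45 / 2)) * t ^ 6 + 3 * t ^ 7 := by
    have e : ((-(85 / 4)) * t ^ 0 + (747 / 4) * t ^ 2 + (-79) * t ^ 3 + (-(247 / 2)) * t ^ 4 + (389 / 5) * t ^ 5 + (-(45 / 2)) * t ^ 6 + 3 * t ^ 7 : ℝ) = (3183 / 320) * (r ^ 0 * u ^ 9) + (84869 / 640) * (r ^ 1 * u ^ 8) + (110889 / 160) * (r ^ 2 * u ^ 7) + (1248809 / 640) * (r ^ 3 * u ^ 6) + (532179 / 160) * (r ^ 4 * u ^ 5) + (143607 / 40) * (r ^ 5 * u ^ 4) + (196651 / 80) * (r ^ 6 * u ^ 3) + (81989 / 80) * (r ^ 7 * u ^ 2) + (4659 / 20) * (r ^ 8 * u ^ 1) + (213 / 10) * (r ^ 9 * u ^ 0) := by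
      rw [hr, hu]; ring
    rw [e]; positivity
  have b5 : (0:ℝ) ≤ (-(61 / 4)) * t ^ 0 + (2293 / 20) * t ^ 2 + (-(125 / 2)) * t ^ 3 + (-43) * t ^ 4 + (281 / 5) * t ^ 5 + (-45) * t ^ 6 + 12 * t ^ 7 := by
    have e : ((-(61 / 4)) * t ^ 0 + (2293 / 20) * t ^ 2 + (-(125 / 2)) * t ^ 3 + (-43) * t ^ 4 + (281 / 5) * t ^ 5 + (-45) * t ^ 6 + 12 * t ^ 7 : ℝ) = (1299 / 320) * (r ^ 0 * u ^ 9) + (4153 / 64) * (r ^ 1 * u ^ 8) + (118743 / 320) * (r ^ 2 * u ^ 7) + (355127 / 320) * (r ^ 3 * u ^ 6) + (63595 / 32) * (r ^ 4 * u ^ 5) + (22463 / 10) * (r ^ 5 * u ^ 4) + (64501 / 40) * (r ^ 6 * u ^ 3) + (11335 / 16) * (r ^ 7 * u ^ 2) + (343 / 2) * (r ^ 8 * u ^ 1) + (171 / 10) * (r ^ 9 * u ^ 0) := by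
      rw [hr, hu]; ring
    rw [e]; positivity
  have b6 : (0:ℝ) ≤ (-6) * t ^ 0 + (173 / 5) * t ^ 2 + (-22) * t ^ 3 + 11 * t ^ 4 + (74 / 5) * t ^ 5 + (-45) * t ^ 6 + 18 * t ^ 7 := by
    have e : ((-6) * t ^ 0 + (173 / 5) * t ^ 2 + (-22) * t ^ 3 + 11 * t ^ 4 + (74 / 5) * t ^ 5 + (-45) * t ^ 6 + 18 * t ^ 7 : ℝ) = (39 / 80) * (r ^ 0 * u ^ 9) + (977 / 64) * (r ^ 1 * u ^ 8) + (16981 / 160) * (r ^ 2 * u ^ 7) + (112613 / 320) * (r ^ 3 * u ^ 6) + (10777 / 16) * (r ^ 4 * u ^ 5) + (7957 / 10) * (r ^ 5 * u ^ 4) + (5851 / 10) * (r ^ 6 * u ^ 3) + 257 * (r ^ 7 * u ^ 2) + 60 * (r ^ 8 * u ^ 1) + (27 / 5) * (r ^ 9 * u ^ 0) := by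
      rw [hr, hu]; ring
    rw [e]; positivity
  have b7 : (0:ℝ) ≤ (-1) * t ^ 0 + 4 * t ^ 2 + (-2) * t ^ 3 + (93 / 10) * t ^ 4 + (1 / 5) * t ^ 5 + (-(45 / 2)) * t ^ 6 + 12 * t ^ 7 := by
    have e : ((-1) * t ^ 0 + 4 * t ^ 2 + (-2) * t ^ 3 + (93 / 10) * t ^ 4 + (1 / 5) * t ^ 5 + (-(45 / 2)) * t ^ 6 + 12 * t ^ 7 : ℝ) = (51 / 640) * (r ^ 0 * u ^ 9) + (1837 / 640) * (r ^ 1 * u ^ 8) + (13177 / 640) * (r ^ 2 * u ^ 7) + (8811 / 128) * (r ^ 3 * u ^ 6) + (10397 / 80) * (r ^ 4 * u ^ 5) + (1175 / 8) * (r ^ 5 * u ^ 4) + (3933 / 40) * (r ^ 6 * u ^ 3) + (1431 / 40) * (r ^ 7 * u ^ 2) + (27 / 5) * (r ^ 8 * u ^ 1) := by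
      rw [hr, hu]; ring
    rw [e]; positivity
  have b8 : (0:ℝ) ≤ (3 / 10) * t ^ 2 + (3 / 5) * t ^ 4 + (3 / 5) * t ^ 5 + (-(9 / 2)) * t ^ 6 + 3 * t ^ 7 := by
    have e : ((3 / 10) * t ^ 2 + (3 / 5) * t ^ 4 + (3 / 5) * t ^ 5 + (-(9 / 2)) * t ^ 6 + 3 * t ^ 7 : ℝ) = (27 / 320) * (r ^ 0 * u ^ 9) + (573 / 640) * (r ^ 1 * u ^ 8) + (81 / 20) * (r ^ 2 * u ^ 7) + (6477 / 640) * (r ^ 3 * u ^ 6) + (603 / 40) * (r ^ 4 * u ^ 5) + (2139 / 160) * (r ^ 5 * u ^ 4) + (261 / 40) * (r ^ 6 * u ^ 3) + (27 / 20) * (r ^ 7 * u ^ 2) := by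
      rw [hr, hu]; ring
    rw [e]; positivity
  have key : (1 + s) * t ^ 2 * T0 s t + s * t ^ 2 * E1 s t + (1 + s) * (t ^ 2 - 1 / 2) * E1 t s =
      p ^ 0 * q ^ 8 * ((-(1 / 4)) * t ^ 0 + (12 / 5) * t ^ 2 + (-2) * t ^ 4) +
      p ^ 1 * q ^ 7 * ((-(9 / 4)) * t ^ 0 + (221 / 10) * t ^ 2 + (-2) * t ^ 3 + (-(37 / 2)) * t ^ 4 + 2 * t ^ 5) +
      p ^ 2 * q ^ 6 * ((-(17 / 2)) * t ^ 0 + (335 / 4) * t ^ 2 + (-16) * t ^ 3 + (-(697 / 10)) * t ^ 4 + 16 * t ^ 5) +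
      p ^ 3 * q ^ 5 * ((-(35 / 2)) * t ^ 0 + (3341 / 20) * t ^ 2 + (-(101 / 2)) * t ^ 3 + (-(657 / 5)) * t ^ 4 + (254 / 5) * t ^ 5 + (-(9 / 2)) * t ^ 6) +
      p ^ 4 * q ^ 4 * ((-(85 / 4)) * t ^ 0 + (747 / 4) * t ^ 2 + (-79) * t ^ 3 + (-(247 / 2)) * t ^ 4 + (389 / 5) * t ^ 5 + (-(45 / 2)) * t ^ 6 + 3 * t ^ 7) +
      p ^ 5 * q ^ 3 * ((-(61 / 4)) * t ^ 0 + (2293 / 20) * t ^ 2 + (-(125 / 2)) * t ^ 3 + (-43) * t ^ 4 + (281 / 5) * t ^ 5 + (-45) * t ^ 6 + 12 * t ^ 7) +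
      p ^ 6 * q ^ 2 * ((-6) * t ^ 0 + (173 / 5) * t ^ 2 + (-22) * t ^ 3 + 11 * t ^ 4 + (74 / 5) * t ^ 5 + (-45) * t ^ 6 + 18 * t ^ 7) +
      p ^ 7 * q ^ 1 * ((-1) * t ^ 0 + 4 * t ^ 2 + (-2) * t ^ 3 + (93 / 10) * t ^ 4 + (1 / 5) * t ^ 5 + (-(45 / 2)) * t ^ 6 + 12 * t ^ 7) +
      p ^ 8 * q ^ 0 * ((3 / 10) * t ^ 2 + (3 / 5) * t ^ 4 + (3 / 5) * t ^ 5 + (-(9 / 2)) * t ^ 6 + 3 * t ^ 7) := by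
    rw [hp, hq]
    unfold T0 E1 D1
    ring
  rw [key]
  have c0 := mul_nonneg (mul_nonneg (pow_nonneg hp0 0) (pow_nonneg hq0 8)) b0
  have c1 := mul_nonneg (mul_nonneg (pow_nonneg hp0 1) (pow_nonneg hq0 7)) b1
  have c2 := mul_nonneg (mul_nonneg (pow_nonneg hp0 2) (pow_nonneg hq0 6)) b2
  have c3 := mul_nonneg (mul_nonneg (pow_nonneg hp0 3) (pow_nonneg hq0 5)) b3
  have c4 := mul_nonneg (mul_nonneg (pow_nonneg hp0 4) (pow_nonneg hq0 4)) b4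
  have c5 := mul_nonneg (mul_nonneg (pow_nonneg hp0 5) (pow_nonneg hq0 3)) b5
  have c6 := mul_nonneg (mul_nonneg (pow_nonneg hp0 6) (pow_nonneg hq0 2)) b6
  have c7 := mul_nonneg (mul_nonneg (pow_nonneg hp0 7) (pow_nonneg hq0 1)) b7
  have c8 := mul_nonneg (mul_nonneg (pow_nonneg hp0 8) (pow_nonneg hq0 0)) b8
  linarith [c0, c1, c2, c3, c4, c5, c6, c7, c8]

end Vale.Agent.P154
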