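import Vale.Agent.P154.G.CornerDefs

/-!
# P154, all `d`: a corner inequality (generated: Bernstein coefficients on the rectangle are nonnegative)
-/

namespace Vale.Agent.P154

set_option maxHeartbeats 1000000 in
theorem corner_lo1_lo1 (s t : ℝ) (hs0 : 0 ≤ s) (hs1 : s ≤ 1 / 2) (ht0 : 0 ≤ t) (ht1 : t ≤ 1 / 2) :
    0 ≤ (1 - s) * (1 - t) * T0 s t + (-s) * (1 - t) * E1 s t + (1 - s) * (-t) * E1 t s := by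
  obtain ⟨p, hp⟩ : ∃ p : ℝ, p = 2 * s := ⟨_, rfl⟩
  obtain ⟨q, hq⟩ : ∃ q : ℝ, q = 1 - 2 * s := ⟨_, rfl⟩
  obtain ⟨r, hr⟩ : ∃ r : ℝ, r = 2 * t := ⟨_, rfl⟩
  obtain ⟨u, hu⟩ : ∃ u : ℝ, u = 1 - 2 * t := ⟨_, rfl⟩
  have hp0 : 0 ≤ p := by linarith
  have hq0 : 0 ≤ q := by linarith
  have hr0 : 0 ≤ r := by linarith
  have hu0 : 0 ≤ u := by linarith
  have b0 : (0:ℝ) ≤ (9 / 10) * t ^ 0 + (-(7 / 5)) * t ^ 1 + 2 * t ^ 3 := by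
    have e : ((9 / 10) * t ^ 0 + (-(7 / 5)) * t ^ 1 + 2 * t ^ 3 : ℝ) = (9 / 10) * (r ^ 0 * u ^ 6) + (47 / 10) * (r ^ 1 * u ^ 5) + 10 * (r ^ 2 * u ^ 4) + (45 / 4) * (r ^ 3 * u ^ 3) + (29 / 4) * (r ^ 4 * u ^ 2) + (53 / 20) * (r ^ 5 * u ^ 1) + (9 / 20) * (r ^ 6 * u ^ 0) := by
      rw [hr, hu]; ring
    rw [e]; positivity
  have b1 : (0:ℝ) ≤ (47 / 10) * t ^ 0 + (-(169 / 20)) * t ^ 1 + (5 / 4) * t ^ 2 + (47 / 4) * t ^ 3 + (-1) * t ^ 4 := by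
    have e : ((47 / 10) * t ^ 0 + (-(169 / 20)) * t ^ 1 + (5 / 4) * t ^ 2 + (47 / 4) * t ^ 3 + (-1) * t ^ 4 : ℝ) = (47 / 10) * (r ^ 0 * u ^ 6) + (959 / 40) * (r ^ 1 * u ^ 5) + (795 / 16) * (r ^ 2 * u ^ 4) + (1743 / 32) * (r ^ 3 * u ^ 3) + (1103 / 32) * (r ^ 4 * u ^ 2) + (2017 / 160) * (r ^ 5 * u ^ 1) + (351 / 160) * (r ^ 6 * u ^ 0) := by
      rw [hr, hu]; ring
    rw [e]; positivity
  have b2 : (0:ℝ) ≤ 10 * t ^ 0 + (-(165 / 8)) * t ^ 1 + (203 / 40) * t ^ 2 + (273 / 10) * t ^ 3 + (-(9 / 2)) * t ^ 4 := by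
    have e : (10 * t ^ 0 + (-(165 / 8)) * t ^ 1 + (203 / 40) * t ^ 2 + (273 / 10) * t ^ 3 + (-(9 / 2)) * t ^ 4 : ℝ) = 10 * (r ^ 0 * u ^ 6) + (795 / 16) * (r ^ 1 * u ^ 5) + (15953 / 160) * (r ^ 2 * u ^ 4) + (8429 / 80) * (r ^ 3 * u ^ 3) + (10311 / 160) * (r ^ 4 * u ^ 2) + (371 / 16) * (r ^ 5 * u ^ 1) + (327 / 80) * (r ^ 6 * u ^ 0) := by
      rw [hr, hu]; ring
    rw [e]; positivity
  have b3 : (0:ℝ) ≤ (45 / 4) * t ^ 0 + (-(417 / 16)) * t ^ 1 + (283 / 40) * t ^ 2 + (2637 / 80) * t ^ 3 + (-(563 / 80)) * t ^ 4 + (-(9 / 16)) * t ^ 5 := by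
    have e : ((45 / 4) * t ^ 0 + (-(417 / 16)) * t ^ 1 + (283 / 40) * t ^ 2 + (2637 / 80) * t ^ 3 + (-(563 / 80)) * t ^ 4 + (-(9 / 16)) * t ^ 5 : ℝ) = (45 / 4) * (r ^ 0 * u ^ 6) + (1743 / 32) * (r ^ 1 * u ^ 5) + (8429 / 80) * (r ^ 2 * u ^ 4) + (13553 / 128) * (r ^ 3 * u ^ 3) + (78043 / 1280) * (r ^ 4 * u ^ 2) + (53459 / 2560) * (r ^ 5 * u ^ 1) + (1869 / 512) * (r ^ 6 * u ^ 0) := by
      rw [hr, hu]; ring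
    rw [e]; positivity
  have b4 : (0:ℝ) ≤ (29 / 4) * t ^ 0 + (-(289 / 16)) * t ^ 1 + (17 / 5) * t ^ 2 + (3691 / 160) * t ^ 3 + (-(9 / 2)) * t ^ 4 + (-(15 / 8)) * t ^ 5 + (3 / 16) * t ^ 6 := by
    have e : ((29 / 4) * t ^ 0 + (-(289 / 16)) * t ^ 1 + (17 / 5) * t ^ 2 + (3691 / 160) * t ^ 3 + (-(9 / 2)) * t ^ 4 + (-(15 / 8)) * t ^ 5 + (3 / 16) * t ^ 6 : ℝ) = (29 / 4) * (r ^ 0 * u ^ 6) + (1103 / 32) * (r ^ 1 * u ^ 5) + (10311 / 160) * (r ^ 2 * u ^ 4) + (78043 / 1280) * (r ^ 3 * u ^ 3) + (40841 / 1280) * (r ^ 4 * u ^ 2) + (1251 / 128) * (r ^ 5 * u ^ 1) + (8271 / 5120) * (r ^ 6 * u ^ 0) := by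
      rw [hr, hu]; ring
    rw [e]; positivity
  have b5 : (0:ℝ) ≤ (53 / 20) * t ^ 0 + (-(527 / 80)) * t ^ 1 + (-(3 / 8)) * t ^ 2 + (3059 / 320) * t ^ 3 + (-(157 / 160)) * t ^ 4 + (-(33 / 16)) * t ^ 5 + (3 / 8) * t ^ 6 := by
    have e : ((53 / 20) * t ^ 0 + (-(527 / 80)) * t ^ 1 + (-(3 / 8)) * t ^ 2 + (3059 / 320) * t ^ 3 + (-(157 / 160)) * t ^ 4 + (-(33 / 16)) * t ^ 5 + (3 / 8) * t ^ 6 : ℝ) = (53 / 20) * (r ^ 0 * u ^ 6) + (2017 / 160) * (r ^ 1 * u ^ 5) + (371 / 16) * (r ^ 2 * u ^ 4) + (53459 / 2560) * (r ^ 3 * u ^ 3) + (1251 / 128) * (r ^ 4 * u ^ 2) + (3141 / 1280) * (r ^ 5 * u ^ 1) + (27 / 80) * (r ^ 6 * u ^ 0) := by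
      rw [hr, hu]; ring
    rw [e]; positivity
  have b6 : (0:ℝ) ≤ (9 / 20) * t ^ 0 + (-(81 / 80)) * t ^ 1 + (-(21 / 40)) * t ^ 2 + (609 / 320) * t ^ 3 + (9 / 320) * t ^ 4 + (-(3 / 4)) * t ^ 5 + (3 / 16) * t ^ 6 := by
    have e : ((9 / 20) * t ^ 0 + (-(81 / 80)) * t ^ 1 + (-(21 / 40)) * t ^ 2 + (609 / 320) * t ^ 3 + (9 / 320) * t ^ 4 + (-(3 / 4)) * t ^ 5 + (3 / 16) * t ^ 6 : ℝ) = (9 / 20) * (r ^ 0 * u ^ 6) + (351 / 160) * (r ^ 1 * u ^ 5) + (327 / 80) * (r ^ 2 * u ^ 4) + (1869 / 512) * (r ^ 3 * u ^ 3) + (8271 / 5120) * (r ^ 4 * u ^ 2) + (27 / 80) * (r ^ 5 * u ^ 1) + (81 / 2560) * (r ^ 6 * u ^ 0) := by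
      rw [hr, hu]; ring
    rw [e]; positivity
  have key : (1 - s) * (1 - t) * T0 s t + (-s) * (1 - t) * E1 s t + (1 - s) * (-t) * E1 t s =
      p ^ 0 * q ^ 6 * ((9 / 10) * t ^ 0 + (-(7 / 5)) * t ^ 1 + 2 * t ^ 3) +
      p ^ 1 * q ^ 5 * ((47 / 10) * t ^ 0 + (-(169 / 20)) * t ^ 1 + (5 / 4) * t ^ 2 + (47 / 4) * t ^ 3 + (-1) * t ^ 4) +
      p ^ 2 * q ^ 4 * (10 * t ^ 0 + (-(165 / 8)) * t ^ 1 + (203 / 40) * t ^ 2 + (273 / 10) * t ^ 3 + (-(9 / 2)) * t ^ 4) +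
      p ^ 3 * q ^ 3 * ((45 / 4) * t ^ 0 + (-(417 / 16)) * t ^ 1 + (283 / 40) * t ^ 2 + (2637 / 80) * t ^ 3 + (-(563 / 80)) * t ^ 4 + (-(9 / 16)) * t ^ 5) +
      p ^ 4 * q ^ 2 * ((29 / 4) * t ^ 0 + (-(289 / 16)) * t ^ 1 + (17 / 5) * t ^ 2 + (3691 / 160) * t ^ 3 + (-(9 / 2)) * t ^ 4 + (-(15 / 8)) * t ^ 5 + (3 / 16) * t ^ 6) +
      p ^ 5 * q ^ 1 * ((53 / 20) * t ^ 0 + (-(527 / 80)) * t ^ 1 + (-(3 / 8)) * t ^ 2 + (3059 / 320) * t ^ 3 + (-(157 / 160)) * t ^ 4 + (-(33 / 16)) * t ^ 5 + (3 / 8) * t ^ 6) +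
      p ^ 6 * q ^ 0 * ((9 / 20) * t ^ 0 + (-(81 / 80)) * t ^ 1 + (-(21 / 40)) * t ^ 2 + (609 / 320) * t ^ 3 + (9 / 320) * t ^ 4 + (-(3 / 4)) * t ^ 5 + (3 / 16) * t ^ 6) := by
    rw [hp, hq]
    unfold T0 E1 D1
    ring
  rw [key]
  have c0 := mul_nonneg (mul_nonneg (pow_nonneg hp0 0) (pow_nonneg hq0 6)) b0
  have c1 := mul_nonneg (mul_nonneg (pow_nonneg hp0 1) (pow_nonneg hq0 5)) b1
  have c2 := mul_nonneg (mul_nonneg (pow_nonneg hp0 2) (pow_nonneg hq0 4)) b2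
  have c3 := mul_nonneg (mul_nonneg (pow_nonneg hp0 3) (pow_nonneg hq0 3)) b3
  have c4 := mul_nonneg (mul_nonneg (pow_nonneg hp0 4) (pow_nonneg hq0 2)) b4
  have c5 := mul_nonneg (mul_nonneg (pow_nonneg hp0 5) (pow_nonneg hq0 1)) b5
  have c6 := mul_nonneg (mul_nonneg (pow_nonneg hp0 6) (pow_nonneg hq0 0)) b6
  linarith [c0, c1, c2, c3, c4, c5, c6]

end Vale.Agent.P154
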