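import Vale.Agent.P154.G.CornerDefs

/-!
# P154, all `d`: a corner inequality (generated: Bernstein coefficients on the rectangle are nonnegative)
-/

namespace Vale.Agent.P154

set_option maxHeartbeats 1000000 in
theorem corner_lo1_lo2 (s t : ℝ) (hs0 : 0 ≤ s) (hs1 : s ≤ 1 / 2) (ht0 : 1 / 2 ≤ t) (ht1 : t ≤ 1) :
    0 ≤ (1 - s) * t ^ 2 * T0 s t + (-s) * t ^ 2 * E1 s t + (1 - s) * (t ^ 2 - 1 / 2) * E1 t s := by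
  obtain ⟨p, hp⟩ : ∃ p : ℝ, p = 2 * s := ⟨_, rfl⟩
  obtain ⟨q, hq⟩ : ∃ q : ℝ, q = 1 - 2 * s := ⟨_, rfl⟩
  obtain ⟨r, hr⟩ : ∃ r : ℝ, r = 2 * t - 1 := ⟨_, rfl⟩
  obtain ⟨u, hu⟩ : ∃ u : ℝ, u = 2 - 2 * t := ⟨_, rfl⟩
  have hp0 : 0 ≤ p := by linarith
  have hq0 : 0 ≤ q := by linarith
  have hr0 : 0 ≤ r := by linarith
  have hu0 : 0 ≤ u := by linarith
  have b0 : (0:ℝ) ≤ (-(1 / 4)) * t ^ 0 + (12 / 5) * t ^ 2 + (-2) * t ^ 4 := by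
    have e : ((-(1 / 4)) * t ^ 0 + (12 / 5) * t ^ 2 + (-2) * t ^ 4 : ℝ) = (9 / 40) * (r ^ 0 * u ^ 7) + (91 / 40) * (r ^ 1 * u ^ 6) + (351 / 40) * (r ^ 2 * u ^ 5) + (137 / 8) * (r ^ 3 * u ^ 4) + (73 / 4) * (r ^ 4 * u ^ 3) + (207 / 20) * (r ^ 5 * u ^ 2) + (53 / 20) * (r ^ 6 * u ^ 1) + (3 / 20) * (r ^ 7 * u ^ 0) := by
      rw [hr, hu]; ring
    rw [e]; positivity
  have b1 : (0:ℝ) ≤ (-(11 / 8)) * t ^ 0 + (259 / 20) * t ^ 2 + (-1) * t ^ 3 + (-(43 / 4)) * t ^ 4 + 1 * t ^ 5 := by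
    have e : ((-(11 / 8)) * t ^ 0 + (259 / 20) * t ^ 2 + (-1) * t ^ 3 + (-(43 / 4)) * t ^ 4 + 1 * t ^ 5 : ℝ) = (351 / 320) * (r ^ 0 * u ^ 7) + (3599 / 320) * (r ^ 1 * u ^ 6) + (13949 / 320) * (r ^ 2 * u ^ 5) + (5449 / 64) * (r ^ 3 * u ^ 4) + (1451 / 16) * (r ^ 4 * u ^ 3) + (4119 / 80) * (r ^ 5 * u ^ 2) + (533 / 40) * (r ^ 6 * u ^ 1) + (33 / 40) * (r ^ 7 * u ^ 0) := by
      rw [hr, hu]; ring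
    rw [e]; positivity
  have b2 : (0:ℝ) ≤ (-(49 / 16)) * t ^ 0 + (445 / 16) * t ^ 2 + (-(9 / 2)) * t ^ 3 + (-(114 / 5)) * t ^ 4 + (9 / 2) * t ^ 5 := by
    have e : ((-(49 / 16)) * t ^ 0 + (445 / 16) * t ^ 2 + (-(9 / 2)) * t ^ 3 + (-(114 / 5)) * t ^ 4 + (9 / 2) * t ^ 5 : ℝ) = (327 / 160) * (r ^ 0 * u ^ 7) + (6889 / 320) * (r ^ 1 * u ^ 6) + (26999 / 320) * (r ^ 2 * u ^ 5) + (13249 / 80) * (r ^ 3 * u ^ 4) + (56653 / 320) * (r ^ 4 * u ^ 3) + (32417 / 320) * (r ^ 5 * u ^ 2) + (431 / 16) * (r ^ 6 * u ^ 1) + (39 / 20) * (r ^ 7 * u ^ 0) := by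
      rw [hr, hu]; ring
    rw [e]; positivity
  have b3 : (0:ℝ) ≤ (-(113 / 32)) * t ^ 0 + (975 / 32) * t ^ 2 + (-(121 / 16)) * t ^ 3 + (-(1999 / 80)) * t ^ 4 + (38 / 5) * t ^ 5 + (9 / 16) * t ^ 6 := by
    have e : ((-(113 / 32)) * t ^ 0 + (975 / 32) * t ^ 2 + (-(121 / 16)) * t ^ 3 + (-(1999 / 80)) * t ^ 4 + (38 / 5) * t ^ 5 + (9 / 16) * t ^ 6 : ℝ) = (1869 / 1024) * (r ^ 0 * u ^ 7) + (103261 / 5120) * (r ^ 1 * u ^ 6) + (20633 / 256) * (r ^ 2 * u ^ 5) + (25553 / 160) * (r ^ 3 * u ^ 4) + (13767 / 80) * (r ^ 4 * u ^ 3) + (64063 / 640) * (r ^ 5 * u ^ 2) + (2241 / 80) * (r ^ 6 * u ^ 1) + (51 / 20) * (r ^ 7 * u ^ 0) := by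
      rw [hr, hu]; ring
    rw [e]; positivity
  have b4 : (0:ℝ) ≤ (-(71 / 32)) * t ^ 0 + (1163 / 64) * t ^ 2 + (-(189 / 32)) * t ^ 3 + (-(2551 / 160)) * t ^ 4 + (99 / 16) * t ^ 5 + (27 / 16) * t ^ 6 + (-(3 / 16)) * t ^ 7 := by
    have e : ((-(71 / 32)) * t ^ 0 + (1163 / 64) * t ^ 2 + (-(189 / 32)) * t ^ 3 + (-(2551 / 160)) * t ^ 4 + (99 / 16) * t ^ 5 + (27 / 16) * t ^ 6 + (-(3 / 16)) * t ^ 7 : ℝ) = (8271 / 10240) * (r ^ 0 * u ^ 7) + (12357 / 1280) * (r ^ 1 * u ^ 6) + (101399 / 2560) * (r ^ 2 * u ^ 5) + (202731 / 2560) * (r ^ 3 * u ^ 4) + (429 / 5) * (r ^ 4 * u ^ 3) + (65041 / 1280) * (r ^ 5 * u ^ 2) + (975 / 64) * (r ^ 6 * u ^ 1) + (573 / 320) * (r ^ 7 * u ^ 0) := by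
      rw [hr, hu]; ring
    rw [e]; positivity
  have b5 : (0:ℝ) ≤ (-(23 / 32)) * t ^ 0 + (3691 / 640) * t ^ 2 + (-(139 / 64)) * t ^ 3 + (-(399 / 64)) * t ^ 4 + (427 / 160) * t ^ 5 + (27 / 16) * t ^ 6 + (-(3 / 8)) * t ^ 7 := by
    have e : ((-(23 / 32)) * t ^ 0 + (3691 / 640) * t ^ 2 + (-(139 / 64)) * t ^ 3 + (-(399 / 64)) * t ^ 4 + (427 / 160) * t ^ 5 + (27 / 16) * t ^ 6 + (-(3 / 8)) * t ^ 7 : ℝ) = (27 / 160) * (r ^ 0 * u ^ 7) + (5751 / 2560) * (r ^ 1 * u ^ 6) + (4809 / 512) * (r ^ 2 * u ^ 5) + (19047 / 1024) * (r ^ 3 * u ^ 4) + (2537 / 128) * (r ^ 4 * u ^ 3) + (30233 / 2560) * (r ^ 5 * u ^ 2) + (2497 / 640) * (r ^ 6 * u ^ 1) + (399 / 640) * (r ^ 7 * u ^ 0) := by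
      rw [hr, hu]; ring
    rw [e]; positivity
  have b6 : (0:ℝ) ≤ (-(3 / 32)) * t ^ 0 + (513 / 640) * t ^ 2 + (-(39 / 128)) * t ^ 3 + (-(393 / 320)) * t ^ 4 + (171 / 320) * t ^ 5 + (9 / 16) * t ^ 6 + (-(3 / 16)) * t ^ 7 := by
    have e : ((-(3 / 32)) * t ^ 0 + (513 / 640) * t ^ 2 + (-(39 / 128)) * t ^ 3 + (-(393 / 320)) * t ^ 4 + (171 / 320) * t ^ 5 + (9 / 16) * t ^ 6 + (-(3 / 16)) * t ^ 7 : ℝ) = (81 / 5120) * (r ^ 0 * u ^ 7) + (1107 / 5120) * (r ^ 1 * u ^ 6) + (8793 / 10240) * (r ^ 2 * u ^ 5) + (3969 / 2560) * (r ^ 3 * u ^ 4) + (7539 / 5120) * (r ^ 4 * u ^ 3) + (531 / 640) * (r ^ 5 * u ^ 2) + (429 / 1280) * (r ^ 6 * u ^ 1) + (27 / 320) * (r ^ 7 * u ^ 0) := by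
      rw [hr, hu]; ring
    rw [e]; positivity
  have key : (1 - s) * t ^ 2 * T0 s t + (-s) * t ^ 2 * E1 s t + (1 - s) * (t ^ 2 - 1 / 2) * E1 t s =
      p ^ 0 * q ^ 6 * ((-(1 / 4)) * t ^ 0 + (12 / 5) * t ^ 2 + (-2) * t ^ 4) +
      p ^ 1 * q ^ 5 * ((-(11 / 8)) * t ^ 0 + (259 / 20) * t ^ 2 + (-1) * t ^ 3 + (-(43 / 4)) * t ^ 4 + 1 * t ^ 5) +
      p ^ 2 * q ^ 4 * ((-(49 / 16)) * t ^ 0 + (445 / 16) * t ^ 2 + (-(9 / 2)) * t ^ 3 + (-(114 / 5)) * t ^ 4 + (9 / 2) * t ^ 5) +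
      p ^ 3 * q ^ 3 * ((-(113 / 32)) * t ^ 0 + (975 / 32) * t ^ 2 + (-(121 / 16)) * t ^ 3 + (-(1999 / 80)) * t ^ 4 + (38 / 5) * t ^ 5 + (9 / 16) * t ^ 6) +
      p ^ 4 * q ^ 2 * ((-(71 / 32)) * t ^ 0 + (1163 / 64) * t ^ 2 + (-(189 / 32)) * t ^ 3 + (-(2551 / 160)) * t ^ 4 + (99 / 16) * t ^ 5 + (27 / 16) * t ^ 6 + (-(3 / 16)) * t ^ 7) +
      p ^ 5 * q ^ 1 * ((-(23 / 32)) * t ^ 0 + (3691 / 640) * t ^ 2 + (-(139 / 64)) * t ^ 3 + (-(399 / 64)) * t ^ 4 + (427 / 160) * t ^ 5 + (27 / 16) * t ^ 6 + (-(3 / 8)) * t ^ 7) +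
      p ^ 6 * q ^ 0 * ((-(3 / 32)) * t ^ 0 + (513 / 640) * t ^ 2 + (-(39 / 128)) * t ^ 3 + (-(393 / 320)) * t ^ 4 + (171 / 320) * t ^ 5 + (9 / 16) * t ^ 6 + (-(3 / 16)) * t ^ 7) := by
    rw [hp, hq]
    unfold T0 E1 D1
    ring
  rw [key]
  have c0 := mul_nonneg (mul_nonneg (pow_nonneg hp0 0) (pow_nonneg hq0 6)) b0
  have c1 := mul_nonneg (mul_nonneg (pow_nonneg hp0 1) (pow_nonneg hq0 5)) b1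
  have c2 := mul_nonneg (mul_nonneg (pow_nonneg hp0 2) (pow_nonneg hq0 4)) b2
  have c3 := mul_nonneg (mul_nonneg (pow_nonneg hp0 3) (pow_nonneg hq0 3)) b3
  have c4 := mul_nonneg (mul_nonneg (pow_nonneg hp0 4) (pow_nonneg hq0 2)) b4
  have c5 := mul_nonneg (mul_nonneg (pow_nonneg hp0 5) (pow_nonneg hq0 1)) b5
  have c6 := mul_nonneg (mul_nonneg (pow_nonneg hp0 6) (pow_nonneg hq0 0)) b6
  linarith [c0, c1, c2, c3, c4, c5, c6]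

end Vale.Agent.P154
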