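import Vale.Agent.P154.G.CornerDefs

/-!
# P154, all `d`: a corner inequality (generated: Bernstein coefficients on the rectangle are nonnegative)
-/

namespace Vale.Agent.P154

set_option maxHeartbeats 1000000 in
theorem corner_lo2_hi (s t : ℝ) (hs0 : 1 / 2 ≤ s) (hs1 : s ≤ 1) (ht0 : 0 ≤ t) (ht1 : t ≤ 1) :
    0 ≤ s ^ 2 * (1 + t) * T0 s t + (s ^ 2 - 1 / 2) * (1 + t) * E1 s t + s ^ 2 * t * E1 t s := by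
  obtain ⟨p, hp⟩ : ∃ p : ℝ, p = 2 * s - 1 := ⟨_, rfl⟩
  obtain ⟨q, hq⟩ : ∃ q : ℝ, q = 2 - 2 * s := ⟨_, rfl⟩
  obtain ⟨r, hr⟩ : ∃ r : ℝ, r = t := ⟨_, rfl⟩
  obtain ⟨u, hu⟩ : ∃ u : ℝ, u = 1 - t := ⟨_, rfl⟩
  have hp0 : 0 ≤ p := by linarith
  have hq0 : 0 ≤ q := by linarith
  have hr0 : 0 ≤ r := by linarith
  have hu0 : 0 ≤ u := by linarith
  have b0 : (0:ℝ) ≤ (9 / 40) * t ^ 0 + (21 / 160) * t ^ 1 + (-(51 / 80)) * t ^ 2 + (-(177 / 640)) * t ^ 3 + (351 / 640) * t ^ 4 + (3 / 16) * t ^ 5 + (-(3 / 32)) * t ^ 6 := by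
    have e : ((9 / 40) * t ^ 0 + (21 / 160) * t ^ 1 + (-(51 / 80)) * t ^ 2 + (-(177 / 640)) * t ^ 3 + (351 / 640) * t ^ 4 + (3 / 16) * t ^ 5 + (-(3 / 32)) * t ^ 6 : ℝ) = (9 / 40) * (r ^ 0 * u ^ 8) + (309 / 160) * (r ^ 1 * u ^ 7) + (1053 / 160) * (r ^ 2 * u ^ 6) + (7203 / 640) * (r ^ 3 * u ^ 5) + (3183 / 320) * (r ^ 4 * u ^ 4) + (1299 / 320) * (r ^ 5 * u ^ 3) + (39 / 80) * (r ^ 6 * u ^ 2) + (51 / 640) * (r ^ 7 * u ^ 1) + (27 / 320) * (r ^ 8 * u ^ 0) := by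
      rw [hr, hu]; ring
    rw [e]; positivity
  have b1 : (0:ℝ) ≤ (109 / 40) * t ^ 0 + (251 / 160) * t ^ 1 + (-(71 / 10)) * t ^ 2 + (-(307 / 128)) * t ^ 3 + (871 / 160) * t ^ 4 + (51 / 32) * t ^ 5 + (-(15 / 16)) * t ^ 6 := by
    have e : ((109 / 40) * t ^ 0 + (251 / 160) * t ^ 1 + (-(71 / 10)) * t ^ 2 + (-(307 / 128)) * t ^ 3 + (871 / 160) * t ^ 4 + (51 / 32) * t ^ 5 + (-(15 / 16)) * t ^ 6 : ℝ) = (109 / 40) * (r ^ 0 * u ^ 8) + (3739 / 160) * (r ^ 1 * u ^ 7) + (12829 / 160) * (r ^ 2 * u ^ 6) + (89949 / 640) * (r ^ 3 * u ^ 5) + (84869 / 640) * (r ^ 4 * u ^ 4) + (4153 / 64) * (r ^ 5 * u ^ 3) + (977 / 64) * (r ^ 6 * u ^ 2) + (1837 / 640) * (r ^ 7 * u ^ 1) + (573 / 640) * (r ^ 8 * u ^ 0) := by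
      rw [hr, hu]; ring
    rw [e]; positivity
  have b2 : (0:ℝ) ≤ (271 / 20) * t ^ 0 + (599 / 80) * t ^ 1 + (-(2679 / 80)) * t ^ 2 + (-(4831 / 640)) * t ^ 3 + (14431 / 640) * t ^ 4 + (21 / 4) * t ^ 5 + (-(15 / 4)) * t ^ 6 := by
    have e : ((271 / 20) * t ^ 0 + (599 / 80) * t ^ 1 + (-(2679 / 80)) * t ^ 2 + (-(4831 / 640)) * t ^ 3 + (14431 / 640) * t ^ 4 + (21 / 4) * t ^ 5 + (-(15 / 4)) * t ^ 6 : ℝ) = (271 / 20) * (r ^ 0 * u ^ 8) + (9271 / 80) * (r ^ 1 * u ^ 7) + (15933 / 40) * (r ^ 2 * u ^ 6) + (452841 / 640) * (r ^ 3 * u ^ 5) + (110889 / 160) * (r ^ 4 * u ^ 4) + (118743 / 320) * (r ^ 5 * u ^ 3) + (16981 / 160) * (r ^ 6 * u ^ 2) + (13177 / 640) * (r ^ 7 * u ^ 1) + (81 / 20) * (r ^ 8 * u ^ 0) := by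
      rw [hr, hu]; ring
    rw [e]; positivity
  have b3 : (0:ℝ) ≤ (739 / 20) * t ^ 0 + (1541 / 80) * t ^ 1 + (-(7027 / 80)) * t ^ 2 + (-(5317 / 640)) * t ^ 3 + (15897 / 320) * t ^ 4 + (15 / 2) * t ^ 5 + (-(57 / 8)) * t ^ 6 := by
    have e : ((739 / 20) * t ^ 0 + (1541 / 80) * t ^ 1 + (-(7027 / 80)) * t ^ 2 + (-(5317 / 640)) * t ^ 3 + (15897 / 320) * t ^ 4 + (15 / 2) * t ^ 5 + (-(57 / 8)) * t ^ 6 : ℝ) = (739 / 20) * (r ^ 0 * u ^ 8) + (25189 / 80) * (r ^ 1 * u ^ 7) + (5408 / 5) * (r ^ 2 * u ^ 6) + (1240563 / 640) * (r ^ 3 * u ^ 5) + (1248809 / 640) * (r ^ 4 * u ^ 4) + (355127 / 320) * (r ^ 5 * u ^ 3) + (112613 / 320) * (r ^ 6 * u ^ 2) + (8811 / 128) * (r ^ 7 * u ^ 1) + (6477 / 640) * (r ^ 8 * u ^ 0) := by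
      rw [hr, hu]; ring
    rw [e]; positivity
  have b4 : (0:ℝ) ≤ (2451 / 40) * t ^ 0 + (4769 / 160) * t ^ 1 + (-(11241 / 80)) * t ^ 2 + (1327 / 160) * t ^ 3 + (9579 / 160) * t ^ 4 + (9 / 16) * t ^ 5 + (-(135 / 32)) * t ^ 6 := by
    have e : ((2451 / 40) * t ^ 0 + (4769 / 160) * t ^ 1 + (-(11241 / 80)) * t ^ 2 + (1327 / 160) * t ^ 3 + (9579 / 160) * t ^ 4 + (9 / 16) * t ^ 5 + (-(135 / 32)) * t ^ 6 : ℝ) = (2451 / 40) * (r ^ 0 * u ^ 8) + (83201 / 160) * (r ^ 1 * u ^ 7) + (285413 / 160) * (r ^ 2 * u ^ 6) + (64451 / 20) * (r ^ 3 * u ^ 5) + (532179 / 160) * (r ^ 4 * u ^ 4) + (63595 / 32) * (r ^ 5 * u ^ 3) + (10777 / 16) * (r ^ 6 * u ^ 2) + (10397 / 80) * (r ^ 7 * u ^ 1) + (603 / 40) * (r ^ 8 * u ^ 0) := by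
      rw [hr, hu]; ring
    rw [e]; positivity
  have b5 : (0:ℝ) ≤ (2559 / 40) * t ^ 0 + (4631 / 160) * t ^ 1 + (-(5613 / 40)) * t ^ 2 + (2753 / 80) * t ^ 3 + (5073 / 160) * t ^ 4 + (-(441 / 32)) * t ^ 5 + (135 / 16) * t ^ 6 := by
    have e : ((2559 / 40) * t ^ 0 + (4631 / 160) * t ^ 1 + (-(5613 / 40)) * t ^ 2 + (2753 / 80) * t ^ 3 + (5073 / 160) * t ^ 4 + (-(441 / 32)) * t ^ 5 + (135 / 16) * t ^ 6 : ℝ) = (2559 / 40) * (r ^ 0 * u ^ 8) + (86519 / 160) * (r ^ 1 * u ^ 7) + (296573 / 160) * (r ^ 2 * u ^ 6) + (541261 / 160) * (r ^ 3 * u ^ 5) + (143607 / 40) * (r ^ 4 * u ^ 4) + (22463 / 10) * (r ^ 5 * u ^ 3) + (7957 / 10) * (r ^ 6 * u ^ 2) + (1175 / 8) * (r ^ 7 * u ^ 1) + (2139 / 160) * (r ^ 8 * u ^ 0) := by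
      rw [hr, hu]; ring
    rw [e]; positivity
  have b6 : (0:ℝ) ≤ (208 / 5) * t ^ 0 + (709 / 40) * t ^ 1 + (-(6793 / 80)) * t ^ 2 + (208 / 5) * t ^ 3 + (-(171 / 20)) * t ^ 4 + (-21) * t ^ 5 + (321 / 16) * t ^ 6 := by
    have e : ((208 / 5) * t ^ 0 + (709 / 40) * t ^ 1 + (-(6793 / 80)) * t ^ 2 + (208 / 5) * t ^ 3 + (-(171 / 20)) * t ^ 4 + (-21) * t ^ 5 + (321 / 16) * t ^ 6 : ℝ) = (208 / 5) * (r ^ 0 * u ^ 8) + (14021 / 40) * (r ^ 1 * u ^ 7) + (96317 / 80) * (r ^ 2 * u ^ 6) + (44679 / 20) * (r ^ 3 * u ^ 5) + (196651 / 80) * (r ^ 4 * u ^ 4) + (64501 / 40) * (r ^ 5 * u ^ 3) + (5851 / 10) * (r ^ 6 * u ^ 2) + (3933 / 40) * (r ^ 7 * u ^ 1) + (261 / 40) * (r ^ 8 * u ^ 0) := by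
      rw [hr, hu]; ring
    rw [e]; positivity
  have b7 : (0:ℝ) ≤ (79 / 5) * t ^ 0 + (267 / 40) * t ^ 1 + (-(2219 / 80)) * t ^ 2 + (393 / 16) * t ^ 3 + (-(1721 / 80)) * t ^ 4 + (-(237 / 16)) * t ^ 5 + (147 / 8) * t ^ 6 := by
    have e : ((79 / 5) * t ^ 0 + (267 / 40) * t ^ 1 + (-(2219 / 80)) * t ^ 2 + (393 / 16) * t ^ 3 + (-(1721 / 80)) * t ^ 4 + (-(237 / 16)) * t ^ 5 + (147 / 8) * t ^ 6 : ℝ) = (79 / 5) * (r ^ 0 * u ^ 8) + (5323 / 40) * (r ^ 1 * u ^ 7) + (36911 / 80) * (r ^ 2 * u ^ 6) + (70649 / 80) * (r ^ 3 * u ^ 5) + (81989 / 80) * (r ^ 4 * u ^ 4) + (11335 / 16) * (r ^ 5 * u ^ 3) + 257 * (r ^ 6 * u ^ 2) + (1431 / 40) * (r ^ 7 * u ^ 1) + (27 / 20) * (r ^ 8 * u ^ 0) := by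
      rw [hr, hu]; ring
    rw [e]; positivity
  have b8 : (0:ℝ) ≤ (59 / 20) * t ^ 0 + (29 / 20) * t ^ 1 + (-(63 / 20)) * t ^ 2 + (34 / 5) * t ^ 3 + (-(221 / 20)) * t ^ 4 + (-(21 / 4)) * t ^ 5 + (33 / 4) * t ^ 6 := by
    have e : ((59 / 20) * t ^ 0 + (29 / 20) * t ^ 1 + (-(63 / 20)) * t ^ 2 + (34 / 5) * t ^ 3 + (-(221 / 20)) * t ^ 4 + (-(21 / 4)) * t ^ 5 + (33 / 4) * t ^ 6 : ℝ) = (59 / 20) * (r ^ 0 * u ^ 8) + (501 / 20) * (r ^ 1 * u ^ 7) + (448 / 5) * (r ^ 2 * u ^ 6) + (3671 / 20) * (r ^ 3 * u ^ 5) + (4659 / 20) * (r ^ 4 * u ^ 4) + (343 / 2) * (r ^ 5 * u ^ 3) + 60 * (r ^ 6 * u ^ 2) + (27 / 5) * (r ^ 7 * u ^ 1) := by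
      rw [hr, hu]; ring
    rw [e]; positivity
  have b9 : (0:ℝ) ≤ (3 / 20) * t ^ 0 + (3 / 20) * t ^ 1 + (3 / 10) * t ^ 2 + (3 / 5) * t ^ 3 + (-(39 / 20)) * t ^ 4 + (-(3 / 4)) * t ^ 5 + (3 / 2) * t ^ 6 := by
    have e : ((3 / 20) * t ^ 0 + (3 / 20) * t ^ 1 + (3 / 10) * t ^ 2 + (3 / 5) * t ^ 3 + (-(39 / 20)) * t ^ 4 + (-(3 / 4)) * t ^ 5 + (3 / 2) * t ^ 6 : ℝ) = (3 / 20) * (r ^ 0 * u ^ 8) + (27 / 20) * (r ^ 1 * u ^ 7) + (111 / 20) * (r ^ 2 * u ^ 6) + (279 / 20) * (r ^ 3 * u ^ 5) + (213 / 10) * (r ^ 4 * u ^ 4) + (171 / 10) * (r ^ 5 * u ^ 3) + (27 / 5) * (r ^ 6 * u ^ 2) := by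
      rw [hr, hu]; ring
    rw [e]; positivity
  have key : s ^ 2 * (1 + t) * T0 s t + (s ^ 2 - 1 / 2) * (1 + t) * E1 s t + s ^ 2 * t * E1 t s =
      p ^ 0 * q ^ 9 * ((9 / 40) * t ^ 0 + (21 / 160) * t ^ 1 + (-(51 / 80)) * t ^ 2 + (-(177 / 640)) * t ^ 3 + (351 / 640) * t ^ 4 + (3 / 16) * t ^ 5 + (-(3 / 32)) * t ^ 6) +
      p ^ 1 * q ^ 8 * ((109 / 40) * t ^ 0 + (251 / 160) * t ^ 1 + (-(71 / 10)) * t ^ 2 + (-(307 / 128)) * t ^ 3 + (871 / 160) * t ^ 4 + (51 / 32) * t ^ 5 + (-(15 / 16)) * t ^ 6) +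
      p ^ 2 * q ^ 7 * ((271 / 20) * t ^ 0 + (599 / 80) * t ^ 1 + (-(2679 / 80)) * t ^ 2 + (-(4831 / 640)) * t ^ 3 + (14431 / 640) * t ^ 4 + (21 / 4) * t ^ 5 + (-(15 / 4)) * t ^ 6) +
      p ^ 3 * q ^ 6 * ((739 / 20) * t ^ 0 + (1541 / 80) * t ^ 1 + (-(7027 / 80)) * t ^ 2 + (-(5317 / 640)) * t ^ 3 + (15897 / 320) * t ^ 4 + (15 / 2) * t ^ 5 + (-(57 / 8)) * t ^ 6) +
      p ^ 4 * q ^ 5 * ((2451 / 40) * t ^ 0 + (4769 / 160) * t ^ 1 + (-(11241 / 80)) * t ^ 2 + (1327 / 160) * t ^ 3 + (9579 / 160) * t ^ 4 + (9 / 16) * t ^ 5 + (-(135 / 32)) * t ^ 6) +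
      p ^ 5 * q ^ 4 * ((2559 / 40) * t ^ 0 + (4631 / 160) * t ^ 1 + (-(5613 / 40)) * t ^ 2 + (2753 / 80) * t ^ 3 + (5073 / 160) * t ^ 4 + (-(441 / 32)) * t ^ 5 + (135 / 16) * t ^ 6) +
      p ^ 6 * q ^ 3 * ((208 / 5) * t ^ 0 + (709 / 40) * t ^ 1 + (-(6793 / 80)) * t ^ 2 + (208 / 5) * t ^ 3 + (-(171 / 20)) * t ^ 4 + (-21) * t ^ 5 + (321 / 16) * t ^ 6) +
      p ^ 7 * q ^ 2 * ((79 / 5) * t ^ 0 + (267 / 40) * t ^ 1 + (-(2219 / 80)) * t ^ 2 + (393 / 16) * t ^ 3 + (-(1721 / 80)) * t ^ 4 + (-(237 / 16)) * t ^ 5 + (147 / 8) * t ^ 6) +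
      p ^ 8 * q ^ 1 * ((59 / 20) * t ^ 0 + (29 / 20) * t ^ 1 + (-(63 / 20)) * t ^ 2 + (34 / 5) * t ^ 3 + (-(221 / 20)) * t ^ 4 + (-(21 / 4)) * t ^ 5 + (33 / 4) * t ^ 6) +
      p ^ 9 * q ^ 0 * ((3 / 20) * t ^ 0 + (3 / 20) * t ^ 1 + (3 / 10) * t ^ 2 + (3 / 5) * t ^ 3 + (-(39 / 20)) * t ^ 4 + (-(3 / 4)) * t ^ 5 + (3 / 2) * t ^ 6) := by
    rw [hp, hq]
    unfold T0 E1 D1
    ring
  rw [key]
  have c0 := mul_nonneg (mul_nonneg (pow_nonneg hp0 0) (pow_nonneg hq0 9)) b0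
  have c1 := mul_nonneg (mul_nonneg (pow_nonneg hp0 1) (pow_nonneg hq0 8)) b1
  have c2 := mul_nonneg (mul_nonneg (pow_nonneg hp0 2) (pow_nonneg hq0 7)) b2
  have c3 := mul_nonneg (mul_nonneg (pow_nonneg hp0 3) (pow_nonneg hq0 6)) b3
  have c4 := mul_nonneg (mul_nonneg (pow_nonneg hp0 4) (pow_nonneg hq0 5)) b4
  have c5 := mul_nonneg (mul_nonneg (pow_nonneg hp0 5) (pow_nonneg hq0 4)) b5
  have c6 := mul_nonneg (mul_nonneg (pow_nonneg hp0 6) (pow_nonneg hq0 3)) b6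
  have c7 := mul_nonneg (mul_nonneg (pow_nonneg hp0 7) (pow_nonneg hq0 2)) b7
  have c8 := mul_nonneg (mul_nonneg (pow_nonneg hp0 8) (pow_nonneg hq0 1)) b8
  have c9 := mul_nonneg (mul_nonneg (pow_nonneg hp0 9) (pow_nonneg hq0 0)) b9
  linarith [c0, c1, c2, c3, c4, c5, c6, c7, c8, c9]

end Vale.Agent.P154
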