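import Vale.Agent.P154.G.CornerDefs

/-!
# P154, all `d`: a corner inequality (generated: Bernstein coefficients on the rectangle are nonnegative)
-/

namespace Vale.Agent.P154

set_option maxHeartbeats 1000000 in
theorem corner_lo2_lo1 (s t : ℝ) (hs0 : 1 / 2 ≤ s) (hs1 : s ≤ 1) (ht0 : 0 ≤ t) (ht1 : t ≤ 1 / 2) :
    0 ≤ s ^ 2 * (1 - t) * T0 s t + (s ^ 2 - 1 / 2) * (1 - t) * E1 s t + s ^ 2 * (-t) * E1 t s := by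
  obtain ⟨p, hp⟩ : ∃ p : ℝ, p = 2 * s - 1 := ⟨_, rfl⟩
  obtain ⟨q, hq⟩ : ∃ q : ℝ, q = 2 - 2 * s := ⟨_, rfl⟩
  obtain ⟨r, hr⟩ : ∃ r : ℝ, r = 2 * t := ⟨_, rfl⟩
  obtain ⟨u, hu⟩ : ∃ u : ℝ, u = 1 - 2 * t := ⟨_, rfl⟩
  have hp0 : 0 ≤ p := by linarith
  have hq0 : 0 ≤ q := by linarith
  have hr0 : 0 ≤ r := by linarith
  have hu0 : 0 ≤ u := by linarith
  have b0 : (0:ℝ) ≤ (9 / 40) * t ^ 0 + (-(81 / 160)) * t ^ 1 + (-(21 / 80)) * t ^ 2 + (609 / 640) * t ^ 3 + (9 / 640) * t ^ 4 + (-(3 / 8)) * t ^ 5 + (3 / 32) * t ^ 6 := by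
    have e : ((9 / 40) * t ^ 0 + (-(81 / 160)) * t ^ 1 + (-(21 / 80)) * t ^ 2 + (609 / 640) * t ^ 3 + (9 / 640) * t ^ 4 + (-(3 / 8)) * t ^ 5 + (3 / 32) * t ^ 6 : ℝ) = (9 / 40) * (r ^ 0 * u ^ 6) + (351 / 320) * (r ^ 1 * u ^ 5) + (327 / 160) * (r ^ 2 * u ^ 4) + (1869 / 1024) * (r ^ 3 * u ^ 3) + (8271 / 10240) * (r ^ 4 * u ^ 2) + (27 / 160) * (r ^ 5 * u ^ 1) + (81 / 5120) * (r ^ 6 * u ^ 0) := by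
      rw [hr, hu]; ring
    rw [e]; positivity
  have b1 : (0:ℝ) ≤ (91 / 40) * t ^ 0 + (-(769 / 160)) * t ^ 1 + (-(93 / 40)) * t ^ 2 + (1049 / 128) * t ^ 3 + (-(131 / 320)) * t ^ 4 + (-(87 / 32)) * t ^ 5 + (3 / 4) * t ^ 6 := by
    have e : ((91 / 40) * t ^ 0 + (-(769 / 160)) * t ^ 1 + (-(93 / 40)) * t ^ 2 + (1049 / 128) * t ^ 3 + (-(131 / 320)) * t ^ 4 + (-(87 / 32)) * t ^ 5 + (3 / 4) * t ^ 6 : ℝ) = (91 / 40) * (r ^ 0 * u ^ 6) + (3599 / 320) * (r ^ 1 * u ^ 5) + (6889 / 320) * (r ^ 2 * u ^ 4) + (103261 / 5120) * (r ^ 3 * u ^ 3) + (12357 / 1280) * (r ^ 4 * u ^ 2) + (5751 / 2560) * (r ^ 5 * u ^ 1) + (1107 / 5120) * (r ^ 6 * u ^ 0) := by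
      rw [hr, hu]; ring
    rw [e]; positivity
  have b2 : (0:ℝ) ≤ (351 / 40) * t ^ 0 + (-(2899 / 160)) * t ^ 1 + (-(313 / 40)) * t ^ 2 + (4501 / 160) * t ^ 3 + (-(599 / 160)) * t ^ 4 + (-(111 / 16)) * t ^ 5 + (69 / 32) * t ^ 6 := by
    have e : ((351 / 40) * t ^ 0 + (-(2899 / 160)) * t ^ 1 + (-(313 / 40)) * t ^ 2 + (4501 / 160) * t ^ 3 + (-(599 / 160)) * t ^ 4 + (-(111 / 16)) * t ^ 5 + (69 / 32) * t ^ 6 : ℝ) = (351 / 40) * (r ^ 0 * u ^ 6) + (13949 / 320) * (r ^ 1 * u ^ 5) + (26999 / 320) * (r ^ 2 * u ^ 4) + (20633 / 256) * (r ^ 3 * u ^ 3) + (101399 / 2560) * (r ^ 4 * u ^ 2) + (4809 / 512) * (r ^ 5 * u ^ 1) + (8793 / 10240) * (r ^ 6 * u ^ 0) := by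
      rw [hr, hu]; ring
    rw [e]; positivity
  have b3 : (0:ℝ) ≤ (137 / 8) * t ^ 0 + (-(1127 / 32)) * t ^ 1 + (-(1029 / 80)) * t ^ 2 + (493 / 10) * t ^ 3 + (-(401 / 32)) * t ^ 4 + (-(165 / 32)) * t ^ 5 + (33 / 16) * t ^ 6 := by
    have e : ((137 / 8) * t ^ 0 + (-(1127 / 32)) * t ^ 1 + (-(1029 / 80)) * t ^ 2 + (493 / 10) * t ^ 3 + (-(401 / 32)) * t ^ 4 + (-(165 / 32)) * t ^ 5 + (33 / 16) * t ^ 6 : ℝ) = (137 / 8) * (r ^ 0 * u ^ 6) + (5449 / 64) * (r ^ 1 * u ^ 5) + (13249 / 80) * (r ^ 2 * u ^ 4) + (25553 / 160) * (r ^ 3 * u ^ 3) + (202731 / 2560) * (r ^ 4 * u ^ 2) + (19047 / 1024) * (r ^ 5 * u ^ 1) + (3969 / 2560) * (r ^ 6 * u ^ 0) := by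
      rw [hr, hu]; ring
    rw [e]; positivity
  have b4 : (0:ℝ) ≤ (73 / 4) * t ^ 0 + (-(301 / 8)) * t ^ 1 + (-(847 / 80)) * t ^ 2 + (232 / 5) * t ^ 3 + (-(43 / 2)) * t ^ 4 + (33 / 4) * t ^ 5 + (-(33 / 16)) * t ^ 6 := by
    have e : ((73 / 4) * t ^ 0 + (-(301 / 8)) * t ^ 1 + (-(847 / 80)) * t ^ 2 + (232 / 5) * t ^ 3 + (-(43 / 2)) * t ^ 4 + (33 / 4) * t ^ 5 + (-(33 / 16)) * t ^ 6 : ℝ) = (73 / 4) * (r ^ 0 * u ^ 6) + (1451 / 16) * (r ^ 1 * u ^ 5) + (56653 / 320) * (r ^ 2 * u ^ 4) + (13767 / 80) * (r ^ 3 * u ^ 3) + (429 / 5) * (r ^ 4 * u ^ 2) + (2537 / 128) * (r ^ 5 * u ^ 1) + (7539 / 5120) * (r ^ 6 * u ^ 0) := by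
      rw [hr, hu]; ring
    rw [e]; positivity
  have b5 : (0:ℝ) ≤ (207 / 20) * t ^ 0 + (-(849 / 40)) * t ^ 1 + (-(283 / 80)) * t ^ 2 + (1767 / 80) * t ^ 3 + (-(1649 / 80)) * t ^ 4 + (309 / 16) * t ^ 5 + (-(51 / 8)) * t ^ 6 := by
    have e : ((207 / 20) * t ^ 0 + (-(849 / 40)) * t ^ 1 + (-(283 / 80)) * t ^ 2 + (1767 / 80) * t ^ 3 + (-(1649 / 80)) * t ^ 4 + (309 / 16) * t ^ 5 + (-(51 / 8)) * t ^ 6 : ℝ) = (207 / 20) * (r ^ 0 * u ^ 6) + (4119 / 80) * (r ^ 1 * u ^ 5) + (32417 / 320) * (r ^ 2 * u ^ 4) + (64063 / 640) * (r ^ 3 * u ^ 3) + (65041 / 1280) * (r ^ 4 * u ^ 2) + (30233 / 2560) * (r ^ 5 * u ^ 1) + (531 / 640) * (r ^ 6 * u ^ 0) := by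
      rw [hr, hu]; ring
    rw [e]; positivity
  have b6 : (0:ℝ) ≤ (53 / 20) * t ^ 0 + (-(103 / 20)) * t ^ 1 + (1 / 4) * t ^ 2 + (41 / 10) * t ^ 3 + (-(217 / 20)) * t ^ 4 + (57 / 4) * t ^ 5 + (-(21 / 4)) * t ^ 6 := by
    have e : ((53 / 20) * t ^ 0 + (-(103 / 20)) * t ^ 1 + (1 / 4) * t ^ 2 + (41 / 10) * t ^ 3 + (-(217 / 20)) * t ^ 4 + (57 / 4) * t ^ 5 + (-(21 / 4)) * t ^ 6 : ℝ) = (53 / 20) * (r ^ 0 * u ^ 6) + (533 / 40) * (r ^ 1 * u ^ 5) + (431 / 16) * (r ^ 2 * u ^ 4) + (2241 / 80) * (r ^ 3 * u ^ 3) + (975 / 64) * (r ^ 4 * u ^ 2) + (2497 / 640) * (r ^ 5 * u ^ 1) + (429 / 1280) * (r ^ 6 * u ^ 0) := by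
      rw [hr, hu]; ring
    rw [e]; positivity
  have b7 : (0:ℝ) ≤ (3 / 20) * t ^ 0 + (-(3 / 20)) * t ^ 1 + (3 / 10) * t ^ 2 + (-(51 / 20)) * t ^ 4 + (15 / 4) * t ^ 5 + (-(3 / 2)) * t ^ 6 := by
    have e : ((3 / 20) * t ^ 0 + (-(3 / 20)) * t ^ 1 + (3 / 10) * t ^ 2 + (-(51 / 20)) * t ^ 4 + (15 / 4) * t ^ 5 + (-(3 / 2)) * t ^ 6 : ℝ) = (3 / 20) * (r ^ 0 * u ^ 6) + (33 / 40) * (r ^ 1 * u ^ 5) + (39 / 20) * (r ^ 2 * u ^ 4) + (51 / 20) * (r ^ 3 * u ^ 3) + (573 / 320) * (r ^ 4 * u ^ 2) + (399 / 640) * (r ^ 5 * u ^ 1) + (27 / 320) * (r ^ 6 * u ^ 0) := by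
      rw [hr, hu]; ring
    rw [e]; positivity
  have key : s ^ 2 * (1 - t) * T0 s t + (s ^ 2 - 1 / 2) * (1 - t) * E1 s t + s ^ 2 * (-t) * E1 t s =
      p ^ 0 * q ^ 7 * ((9 / 40) * t ^ 0 + (-(81 / 160)) * t ^ 1 + (-(21 / 80)) * t ^ 2 + (609 / 640) * t ^ 3 + (9 / 640) * t ^ 4 + (-(3 / 8)) * t ^ 5 + (3 / 32) * t ^ 6) +
      p ^ 1 * q ^ 6 * ((91 / 40) * t ^ 0 + (-(769 / 160)) * t ^ 1 + (-(93 / 40)) * t ^ 2 + (1049 / 128) * t ^ 3 + (-(131 / 320)) * t ^ 4 + (-(87 / 32)) * t ^ 5 + (3 / 4) * t ^ 6) +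
      p ^ 2 * q ^ 5 * ((351 / 40) * t ^ 0 + (-(2899 / 160)) * t ^ 1 + (-(313 / 40)) * t ^ 2 + (4501 / 160) * t ^ 3 + (-(599 / 160)) * t ^ 4 + (-(111 / 16)) * t ^ 5 + (69 / 32) * t ^ 6) +
      p ^ 3 * q ^ 4 * ((137 / 8) * t ^ 0 + (-(1127 / 32)) * t ^ 1 + (-(1029 / 80)) * t ^ 2 + (493 / 10) * t ^ 3 + (-(401 / 32)) * t ^ 4 + (-(165 / 32)) * t ^ 5 + (33 / 16) * t ^ 6) +
      p ^ 4 * q ^ 3 * ((73 / 4) * t ^ 0 + (-(301 / 8)) * t ^ 1 + (-(847 / 80)) * t ^ 2 + (232 / 5) * t ^ 3 + (-(43 / 2)) * t ^ 4 + (33 / 4) * t ^ 5 + (-(33 / 16)) * t ^ 6) +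
      p ^ 5 * q ^ 2 * ((207 / 20) * t ^ 0 + (-(849 / 40)) * t ^ 1 + (-(283 / 80)) * t ^ 2 + (1767 / 80) * t ^ 3 + (-(1649 / 80)) * t ^ 4 + (309 / 16) * t ^ 5 + (-(51 / 8)) * t ^ 6) +
      p ^ 6 * q ^ 1 * ((53 / 20) * t ^ 0 + (-(103 / 20)) * t ^ 1 + (1 / 4) * t ^ 2 + (41 / 10) * t ^ 3 + (-(217 / 20)) * t ^ 4 + (57 / 4) * t ^ 5 + (-(21 / 4)) * t ^ 6) +
      p ^ 7 * q ^ 0 * ((3 / 20) * t ^ 0 + (-(3 / 20)) * t ^ 1 + (3 / 10) * t ^ 2 + (-(51 / 20)) * t ^ 4 + (15 / 4) * t ^ 5 + (-(3 / 2)) * t ^ 6) := by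
    rw [hp, hq]
    unfold T0 E1 D1
    ring
  rw [key]
  have c0 := mul_nonneg (mul_nonneg (pow_nonneg hp0 0) (pow_nonneg hq0 7)) b0
  have c1 := mul_nonneg (mul_nonneg (pow_nonneg hp0 1) (pow_nonneg hq0 6)) b1
  have c2 := mul_nonneg (mul_nonneg (pow_nonneg hp0 2) (pow_nonneg hq0 5)) b2
  have c3 := mul_nonneg (mul_nonneg (pow_nonneg hp0 3) (pow_nonneg hq0 4)) b3
  have c4 := mul_nonneg (mul_nonneg (pow_nonneg hp0 4) (pow_nonneg hq0 3)) b4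
  have c5 := mul_nonneg (mul_nonneg (pow_nonneg hp0 5) (pow_nonneg hq0 2)) b5
  have c6 := mul_nonneg (mul_nonneg (pow_nonneg hp0 6) (pow_nonneg hq0 1)) b6
  have c7 := mul_nonneg (mul_nonneg (pow_nonneg hp0 7) (pow_nonneg hq0 0)) b7
  linarith [c0, c1, c2, c3, c4, c5, c6, c7]

end Vale.Agent.P154
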