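import Vale.Agent.P154.G.CornerDefs

/-!
# P154, all `d`: a corner inequality (generated: Bernstein coefficients on the rectangle are nonnegative)
-/

namespace Vale.Agent.P154

set_option maxHeartbeats 1000000 in
theorem corner_lo2_lo2 (s t : ℝ) (hs0 : 1 / 2 ≤ s) (hs1 : s ≤ 1) (ht0 : 1 / 2 ≤ t) (ht1 : t ≤ 1) :
    0 ≤ s ^ 2 * t ^ 2 * T0 s t + (s ^ 2 - 1 / 2) * t ^ 2 * E1 s t + s ^ 2 * (t ^ 2 - 1 / 2) * E1 t s := by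
  obtain ⟨p, hp⟩ : ∃ p : ℝ, p = 2 * s - 1 := ⟨_, rfl⟩
  obtain ⟨q, hq⟩ : ∃ q : ℝ, q = 2 - 2 * s := ⟨_, rfl⟩
  obtain ⟨r, hr⟩ : ∃ r : ℝ, r = 2 * t - 1 := ⟨_, rfl⟩
  obtain ⟨u, hu⟩ : ∃ u : ℝ, u = 2 - 2 * t := ⟨_, rfl⟩
  have hp0 : 0 ≤ p := by linarith
  have hq0 : 0 ≤ q := by linarith
  have hr0 : 0 ≤ r := by linarith
  have hu0 : 0 ≤ u := by linarith
  have b0 : (0:ℝ) ≤ (-(3 / 64)) * t ^ 0 + (513 / 1280) * t ^ 2 + (-(39 / 256)) * t ^ 3 + (-(393 / 640)) * t ^ 4 + (171 / 640) * t ^ 5 + (9 / 32) * t ^ 6 + (-(3 / 32)) * t ^ 7 := by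
    have e : ((-(3 / 64)) * t ^ 0 + (513 / 1280) * t ^ 2 + (-(39 / 256)) * t ^ 3 + (-(393 / 640)) * t ^ 4 + (171 / 640) * t ^ 5 + (9 / 32) * t ^ 6 + (-(3 / 32)) * t ^ 7 : ℝ) = (81 / 10240) * (r ^ 0 * u ^ 7) + (1107 / 10240) * (r ^ 1 * u ^ 6) + (8793 / 20480) * (r ^ 2 * u ^ 5) + (3969 / 5120) * (r ^ 3 * u ^ 4) + (7539 / 10240) * (r ^ 4 * u ^ 3) + (531 / 1280) * (r ^ 5 * u ^ 2) + (429 / 2560) * (r ^ 6 * u ^ 1) + (27 / 640) * (r ^ 7 * u ^ 0) := by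
      rw [hr, hu]; ring
    rw [e]; positivity
  have b1 : (0:ℝ) ≤ (-(25 / 64)) * t ^ 0 + (4517 / 1280) * t ^ 2 + (-(173 / 128)) * t ^ 3 + (-(3213 / 640)) * t ^ 4 + (761 / 320) * t ^ 5 + (63 / 32) * t ^ 6 + (-(3 / 4)) * t ^ 7 := by
    have e : ((-(25 / 64)) * t ^ 0 + (4517 / 1280) * t ^ 2 + (-(173 / 128)) * t ^ 3 + (-(3213 / 640)) * t ^ 4 + (761 / 320) * t ^ 5 + (63 / 32) * t ^ 6 + (-(3 / 4)) * t ^ 7 : ℝ) = (1107 / 10240) * (r ^ 0 * u ^ 7) + (1305 / 1024) * (r ^ 1 * u ^ 6) + (25347 / 5120) * (r ^ 2 * u ^ 5) + (93693 / 10240) * (r ^ 3 * u ^ 4) + (11663 / 1280) * (r ^ 4 * u ^ 3) + (26791 / 5120) * (r ^ 5 * u ^ 2) + (475 / 256) * (r ^ 6 * u ^ 1) + (93 / 256) * (r ^ 7 * u ^ 0) := by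
      rw [hr, hu]; ring
    rw [e]; positivity
  have b2 : (0:ℝ) ≤ (-(85 / 64)) * t ^ 0 + (3873 / 320) * t ^ 2 + (-(77 / 16)) * t ^ 3 + (-(2537 / 160)) * t ^ 4 + (341 / 40) * t ^ 5 + (153 / 32) * t ^ 6 + (-(69 / 32)) * t ^ 7 := by
    have e : ((-(85 / 64)) * t ^ 0 + (3873 / 320) * t ^ 2 + (-(77 / 16)) * t ^ 3 + (-(2537 / 160)) * t ^ 4 + (341 / 40) * t ^ 5 + (153 / 32) * t ^ 6 + (-(69 / 32)) * t ^ 7 : ℝ) = (8793 / 20480) * (r ^ 0 * u ^ 7) + (25347 / 5120) * (r ^ 1 * u ^ 6) + (99293 / 5120) * (r ^ 2 * u ^ 5) + (94047 / 2560) * (r ^ 3 * u ^ 4) + (24239 / 640) * (r ^ 4 * u ^ 3) + (28477 / 1280) * (r ^ 5 * u ^ 2) + (601 / 80) * (r ^ 6 * u ^ 1) + (201 / 160) * (r ^ 7 * u ^ 0) := by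
      rw [hr, hu]; ring
    rw [e]; positivity
  have b3 : (0:ℝ) ≤ (-(151 / 64)) * t ^ 0 + (167 / 8) * t ^ 2 + (-(139 / 16)) * t ^ 3 + (-(243 / 10)) * t ^ 4 + (125 / 8) * t ^ 5 + (99 / 32) * t ^ 6 + (-(33 / 16)) * t ^ 7 := by
    have e : ((-(151 / 64)) * t ^ 0 + (167 / 8) * t ^ 2 + (-(139 / 16)) * t ^ 3 + (-(243 / 10)) * t ^ 4 + (125 / 8) * t ^ 5 + (99 / 32) * t ^ 6 + (-(33 / 16)) * t ^ 7 : ℝ) = (3969 / 5120) * (r ^ 0 * u ^ 7) + (93693 / 10240) * (r ^ 1 * u ^ 6) + (94047 / 2560) * (r ^ 2 * u ^ 5) + (183543 / 2560) * (r ^ 3 * u ^ 4) + (48871 / 640) * (r ^ 4 * u ^ 3) + (29279 / 640) * (r ^ 5 * u ^ 2) + (955 / 64) * (r ^ 6 * u ^ 1) + (699 / 320) * (r ^ 7 * u ^ 0) := by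
      rw [hr, hu]; ring
    rw [e]; positivity
  have b4 : (0:ℝ) ≤ (-(37 / 16)) * t ^ 0 + (307 / 16) * t ^ 2 + (-(131 / 16)) * t ^ 3 + (-(1437 / 80)) * t ^ 4 + (245 / 16) * t ^ 5 + (-(99 / 16)) * t ^ 6 + (33 / 16) * t ^ 7 := by
    have e : ((-(37 / 16)) * t ^ 0 + (307 / 16) * t ^ 2 + (-(131 / 16)) * t ^ 3 + (-(1437 / 80)) * t ^ 4 + (245 / 16) * t ^ 5 + (-(99 / 16)) * t ^ 6 + (33 / 16) * t ^ 7 : ℝ) = (7539 / 10240) * (r ^ 0 * u ^ 7) + (11663 / 1280) * (r ^ 1 * u ^ 6) + (24239 / 640) * (r ^ 2 * u ^ 5) + (48871 / 640) * (r ^ 3 * u ^ 4) + (26739 / 320) * (r ^ 4 * u ^ 3) + (8043 / 160) * (r ^ 5 * u ^ 2) + (495 / 32) * (r ^ 6 * u ^ 1) + (153 / 80) * (r ^ 7 * u ^ 0) := by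
      rw [hr, hu]; ring
    rw [e]; positivity
  have b5 : (0:ℝ) ≤ (-(19 / 16)) * t ^ 0 + (723 / 80) * t ^ 2 + (-(29 / 8)) * t ^ 3 + (-(373 / 80)) * t ^ 4 + (307 / 40) * t ^ 5 + (-(207 / 16)) * t ^ 6 + (51 / 8) * t ^ 7 := by
    have e : ((-(19 / 16)) * t ^ 0 + (723 / 80) * t ^ 2 + (-(29 / 8)) * t ^ 3 + (-(373 / 80)) * t ^ 4 + (307 / 40) * t ^ 5 + (-(207 / 16)) * t ^ 6 + (51 / 8) * t ^ 7 : ℝ) = (531 / 1280) * (r ^ 0 * u ^ 7) + (26791 / 5120) * (r ^ 1 * u ^ 6) + (28477 / 1280) * (r ^ 2 * u ^ 5) + (29279 / 640) * (r ^ 3 * u ^ 4) + (8043 / 160) * (r ^ 4 * u ^ 3) + (2327 / 80) * (r ^ 5 * u ^ 2) + (621 / 80) * (r ^ 6 * u ^ 1) + (27 / 40) * (r ^ 7 * u ^ 0) := by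
      rw [hr, hu]; ring
    rw [e]; positivity
  have b6 : (0:ℝ) ≤ (-(1 / 4)) * t ^ 0 + (19 / 10) * t ^ 2 + (-(1 / 2)) * t ^ 3 + (3 / 4) * t ^ 4 + (37 / 20) * t ^ 5 + (-9) * t ^ 6 + (21 / 4) * t ^ 7 := by
    have e : ((-(1 / 4)) * t ^ 0 + (19 / 10) * t ^ 2 + (-(1 / 2)) * t ^ 3 + (3 / 4) * t ^ 4 + (37 / 20) * t ^ 5 + (-9) * t ^ 6 + (21 / 4) * t ^ 7 : ℝ) = (429 / 2560) * (r ^ 0 * u ^ 7) + (475 / 256) * (r ^ 1 * u ^ 6) + (601 / 80) * (r ^ 2 * u ^ 5) + (955 / 64) * (r ^ 3 * u ^ 4) + (495 / 32) * (r ^ 4 * u ^ 3) + (621 / 80) * (r ^ 5 * u ^ 2) + (27 / 20) * (r ^ 6 * u ^ 1) := by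
      rw [hr, hu]; ring
    rw [e]; positivity
  have b7 : (0:ℝ) ≤ (3 / 20) * t ^ 2 + (3 / 10) * t ^ 4 + (3 / 10) * t ^ 5 + (-(9 / 4)) * t ^ 6 + (3 / 2) * t ^ 7 := by
    have e : ((3 / 20) * t ^ 2 + (3 / 10) * t ^ 4 + (3 / 10) * t ^ 5 + (-(9 / 4)) * t ^ 6 + (3 / 2) * t ^ 7 : ℝ) = (27 / 640) * (r ^ 0 * u ^ 7) + (93 / 256) * (r ^ 1 * u ^ 6) + (201 / 160) * (r ^ 2 * u ^ 5) + (699 / 320) * (r ^ 3 * u ^ 4) + (153 / 80) * (r ^ 4 * u ^ 3) + (27 / 40) * (r ^ 5 * u ^ 2) := by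
      rw [hr, hu]; ring
    rw [e]; positivity
  have key : s ^ 2 * t ^ 2 * T0 s t + (s ^ 2 - 1 / 2) * t ^ 2 * E1 s t + s ^ 2 * (t ^ 2 - 1 / 2) * E1 t s =
      p ^ 0 * q ^ 7 * ((-(3 / 64)) * t ^ 0 + (513 / 1280) * t ^ 2 + (-(39 / 256)) * t ^ 3 + (-(393 / 640)) * t ^ 4 + (171 / 640) * t ^ 5 + (9 / 32) * t ^ 6 + (-(3 / 32)) * t ^ 7) +
      p ^ 1 * q ^ 6 * ((-(25 / 64)) * t ^ 0 + (4517 / 1280) * t ^ 2 + (-(173 / 128)) * t ^ 3 + (-(3213 / 640)) * t ^ 4 + (761 / 320) * t ^ 5 + (63 / 32) * t ^ 6 + (-(3 / 4)) * t ^ 7) +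
      p ^ 2 * q ^ 5 * ((-(85 / 64)) * t ^ 0 + (3873 / 320) * t ^ 2 + (-(77 / 16)) * t ^ 3 + (-(2537 / 160)) * t ^ 4 + (341 / 40) * t ^ 5 + (153 / 32) * t ^ 6 + (-(69 / 32)) * t ^ 7) +
      p ^ 3 * q ^ 4 * ((-(151 / 64)) * t ^ 0 + (167 / 8) * t ^ 2 + (-(139 / 16)) * t ^ 3 + (-(243 / 10)) * t ^ 4 + (125 / 8) * t ^ 5 + (99 / 32) * t ^ 6 + (-(33 / 16)) * t ^ 7) +
      p ^ 4 * q ^ 3 * ((-(37 / 16)) * t ^ 0 + (307 / 16) * t ^ 2 + (-(131 / 16)) * t ^ 3 + (-(1437 / 80)) * t ^ 4 + (245 / 16) * t ^ 5 + (-(99 / 16)) * t ^ 6 + (33 / 16) * t ^ 7) +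
      p ^ 5 * q ^ 2 * ((-(19 / 16)) * t ^ 0 + (723 / 80) * t ^ 2 + (-(29 / 8)) * t ^ 3 + (-(373 / 80)) * t ^ 4 + (307 / 40) * t ^ 5 + (-(207 / 16)) * t ^ 6 + (51 / 8) * t ^ 7) +
      p ^ 6 * q ^ 1 * ((-(1 / 4)) * t ^ 0 + (19 / 10) * t ^ 2 + (-(1 / 2)) * t ^ 3 + (3 / 4) * t ^ 4 + (37 / 20) * t ^ 5 + (-9) * t ^ 6 + (21 / 4) * t ^ 7) +
      p ^ 7 * q ^ 0 * ((3 / 20) * t ^ 2 + (3 / 10) * t ^ 4 + (3 / 10) * t ^ 5 + (-(9 / 4)) * t ^ 6 + (3 / 2) * t ^ 7) := by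
    rw [hp, hq]
    unfold T0 E1 D1
    ring
  rw [key]
  have c0 := mul_nonneg (mul_nonneg (pow_nonneg hp0 0) (pow_nonneg hq0 7)) b0
  have c1 := mul_nonneg (mul_nonneg (pow_nonneg hp0 1) (pow_nonneg hq0 6)) b1
  have c2 := mul_nonneg (mul_nonneg (pow_nonneg hp0 2) (pow_nonneg hq0 5)) b2
  have c3 := mul_nonneg (mul_nonneg (pow_nonneg hp0 3) (pow_nonneg hq0 4)) b3
  have c4 := mul_nonneg (mul_nonneg (pow_nonneg hp0 4) (pow_nonneg hq0 3)) b4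
  have c5 := mul_nonneg (mul_nonneg (pow_nonneg hp0 5) (pow_nonneg hq0 2)) b5
  have c6 := mul_nonneg (mul_nonneg (pow_nonneg hp0 6) (pow_nonneg hq0 1)) b6
  have c7 := mul_nonneg (mul_nonneg (pow_nonneg hp0 7) (pow_nonneg hq0 0)) b7
  linarith [c0, c1, c2, c3, c4, c5, c6, c7]

end Vale.Agent.P154
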