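import Vale.Agent.P154.FamStep
import Vale.Agent.P154.FamEquiv
import Vale.Agent.P154.FamTV
import Vale.Agent.P154.RotSum
import Vale.Agent.P154.Defs

/-!
# P154, all `d`: definitions

Notation of `Alg.lean`: a posterior on three colours is `(1 + e i) / 3`, `al3 e = |z|^2`, `cu3 e = Re z^3`.

* `hh e = (1+e0)(1+e1)(1+e2) / (1 - al3 e)`: three times the harmonic mean of the posterior (note
  `(1+e0)(1+e1) + (1+e0)(1+e2) + (1+e1)(1+e2) = 3 (1 - al3 e)` for sum-zero `e`).  `hh = 1` at `e = 0`, `hh = 0` on the boundary of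
  the simplex (at the vertices Lean's `0 / 0 = 0` gives the right value).
* `ph3W e = (hh e - 1 + 2 al3 e) / 2 = (cu3 e - (al3 e)^2) / (1 - al3 e)`.
* The invariant of the recursion is `Inv w e : 1 - 2 Xf w e ≤ HfW w e`, i.e. `E ph3W ≥ 0`.
* `wMW`, `eMW`: the experiment obtained by observing two independent experiments `(w, e)`, `(v, f)`.
* `wPW`, `ePW`: the experiment obtained by observing `k` independent copies of `(v, f)`.
-/

namespace Vale.Agent.P154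

open Finset

noncomputable def hh (x y z : ℝ) : ℝ := (1 + x) * (1 + y) * (1 + z) / (1 - al3 x y z)

noncomputable def ph3W (x y z : ℝ) : ℝ := (hh x y z - 1 + 2 * al3 x y z) / 2

noncomputable def gg (x y z : ℝ) : ℝ := 3 / 2 * al3 x y z * (1 - al3 x y z)

noncomputable def HfW {ι : Type} [Fintype ι] (w : ι → ℝ) (e : ι → Fin 3 → ℝ) : ℝ :=
  ∑ η, w η * hh (e η 0) (e η 1) (e η 2)

/-- The invariant. -/
def Inv {ι : Type} [Fintype ι] (w : ι → ℝ) (e : ι → Fin 3 → ℝ) : Prop :=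
  1 - 2 * Xf w e ≤ HfW w e

noncomputable def ZMW {ι κ : Type} (e : ι → Fin 3 → ℝ) (f : κ → Fin 3 → ℝ) (p : ι × κ) : ℝ :=
  Z3 (e p.1 0) (e p.1 1) (e p.1 2) (f p.2 0) (f p.2 1) (f p.2 2)

noncomputable def wMW {ι κ : Type} (w : ι → ℝ) (e : ι → Fin 3 → ℝ) (v : κ → ℝ) (f : κ → Fin 3 → ℝ)
    (p : ι × κ) : ℝ :=
  w p.1 * v p.2 * ZMW e f p

noncomputable def eMW {ι κ : Type} (e : ι → Fin 3 → ℝ) (f : κ → Fin 3 → ℝ) (p : ι × κ) (i : Fin 3) : ℝ :=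
  (1 + e p.1 i) * (1 + f p.2 i) / ZMW e f p - 1

/-- `Z * hh (combined deviation)`. -/
noncomputable def KH (a0 a1 a2 b0 b1 b2 : ℝ) : ℝ :=
  Z3 a0 a1 a2 b0 b1 b2 *
    hh ((1 + a0) * (1 + b0) / Z3 a0 a1 a2 b0 b1 b2 - 1)
       ((1 + a1) * (1 + b1) / Z3 a0 a1 a2 b0 b1 b2 - 1)
       ((1 + a2) * (1 + b2) / Z3 a0 a1 a2 b0 b1 b2 - 1)

/-- normalisation of `k` independent copies -/
noncomputable def sP {κ : Type} (f : κ → Fin 3 → ℝ) (k : ℕ) (η : Fin k → κ) : ℝ :=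
  (∑ i : Fin 3, ∏ j, (1 + f (η j) i)) / 3

noncomputable def wPW {κ : Type} (v : κ → ℝ) (f : κ → Fin 3 → ℝ) (k : ℕ) (η : Fin k → κ) : ℝ :=
  (∏ j, v (η j)) * sP f k η

noncomputable def ePW {κ : Type} (f : κ → Fin 3 → ℝ) (k : ℕ) (η : Fin k → κ) (i : Fin 3) : ℝ :=
  (∏ j, (1 + f (η j) i)) / sP f k η - 1

/-- deviation of the posterior of the root on the `d`-ary tree -/
noncomputable def evdW (d : ℕ) (lam : ℝ) (n : ℕ) (η : Conf 3 d n) (i : Fin 3) : ℝ :=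
  3 * post 3 d lam n i η - 1

/-- `D1 = (1 - s t)^2 (1 + 2 s t)` -/
def D1 (s t : ℝ) : ℝ := (1 - s * t) ^ 2 * (1 + 2 * s * t)

/-- the affine form of the `x`-inequality -/
noncomputable def GX (s t φ ψ : ℝ) : ℝ :=
  s ^ 2 * t ^ 2 * (9 / 10 * D1 s t - 2 * (1 - s ^ 2) * (1 - t ^ 2) * (s * t))
    + φ * (t ^ 2 * (1 - t ^ 2) * (2 * (1 - s ^ 2) - 3 / 2 * D1 s t))
    + ψ * (s ^ 2 * (1 - s ^ 2) * (2 * (1 - t ^ 2) - 3 / 2 * D1 s t))

end Vale.Agent.P154
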