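import Vale.Agent.P154.G.Defs

/-!
# P154, all `d`: pointwise facts on the simplex

`x + y + z = 0`, `-1 ≤ x, y, z`.  `al = al3 x y z`, `cu = cu3 x y z`.
* `prod_eqW`: `(1+x)(1+y)(1+z) = 1 - 3 al + 2 cu`;  `pair_eq`: the sum of the three products of two factors is `3 (1 - al)`.
* `ph3_eqW`: if `al < 1` then `ph3W = (cu - al^2) / (1 - al)` (unfold, `prod_eqW`, `field_simp`, `ring`).
* `ph3_dom`: with `s = sqrt al`: `0 ≤ s ≤ 1`, `s^2 = al`, `(1+s) ph3W ≤ s^3`, `-s^3 ≤ (1-s) ph3W`, `s^2 - 1/2 ≤ ph3W`,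
  `cu = al^2 + (1-al) ph3W`.
  Case `al = 1`: `hh = _ / 0 = 0`, `ph3W = 1/2`, `s = 1`; `cu = 1` because `0 ≤ 1 - 3 al + 2 cu` and `cu^2 ≤ al^3` (`cu3_sq_le`).
  Case `al < 1` (`al3_le_one`): `|cu| ≤ s^3` from `cu^2 ≤ al^3 = (s^3)^2`; `1 - al = (1-s)(1+s)`; multiply out
  (`(1+s) ph3W = (cu - s^4)/(1-s) ≤ (s^3 - s^4)/(1-s) = s^3`, etc.; the third one is `0 ≤ 1 - 3 al + 2 cu`).
-/

namespace Vale.Agent.P154

theorem prod_eqW (x y z : ℝ) (h : x + y + z = 0) :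
    (1 + x) * (1 + y) * (1 + z) = 1 - 3 * al3 x y z + 2 * cu3 x y z := by
  obtain rfl : z = -x - y := by linarith
  unfold al3 cu3
  ring

theorem pair_eq (x y z : ℝ) (h : x + y + z = 0) :
    (1 + x) * (1 + y) + (1 + x) * (1 + z) + (1 + y) * (1 + z) = 3 * (1 - al3 x y z) := by
  obtain rfl : z = -x - y := by linarith
  unfold al3
  ring

theorem ph3_eqW (x y z : ℝ) (h : x + y + z = 0) (h1 : al3 x y z < 1) :
    ph3W x y z = (cu3 x y z - al3 x y z ^ 2) / (1 - al3 x y z) := by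
  have hne : 1 - al3 x y z ≠ 0 := by
    intro h0
    linarith
  unfold ph3W hh
  rw [prod_eqW x y z h]
  field_simp
  ring

theorem ph3_dom (x y z : ℝ) (h : x + y + z = 0) (hx : -1 ≤ x) (hy : -1 ≤ y) (hz : -1 ≤ z) :
    ∃ s : ℝ, 0 ≤ s ∧ s ≤ 1 ∧ s ^ 2 = al3 x y z ∧ (1 + s) * ph3W x y z ≤ s ^ 3 ∧
      -s ^ 3 ≤ (1 - s) * ph3W x y z ∧ s ^ 2 - 1 / 2 ≤ ph3W x y z ∧
      cu3 x y z = al3 x y z ^ 2 + (1 - al3 x y z) * ph3W x y z := by
  have hal0 : 0 ≤ al3 x y z := al3_nonneg x y z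
  have hal1 : al3 x y z ≤ 1 := al3_le_one x y z h hx hy hz
  have hcu : cu3 x y z ^ 2 ≤ al3 x y z ^ 3 := cu3_sq_le x y z h
  have hP : 0 ≤ 1 - 3 * al3 x y z + 2 * cu3 x y z := by
    rw [← prod_eqW x y z h]
    exact mul_nonneg (mul_nonneg (by linarith) (by linarith)) (by linarith)
  rcases eq_or_lt_of_le hal1 with h1 | h1
  · have hph : ph3W x y z = 1 / 2 := by
      unfold ph3W hh
      rw [h1]
      norm_num
    have hc1 : 1 ≤ cu3 x y z := by
      rw [h1] at hP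
      linarith
    have hc2 : cu3 x y z ≤ 1 := by
      rw [h1] at hcu
      nlinarith
    refine ⟨1, by norm_num, le_refl _, ?_, ?_, ?_, ?_, ?_⟩
    · rw [h1]; norm_num
    · rw [hph]; norm_num
    · rw [hph]; norm_num
    · rw [hph]; norm_num
    · rw [h1, hph]
      linarith
  · obtain ⟨s, hs0, hs2⟩ : ∃ s : ℝ, 0 ≤ s ∧ s ^ 2 = al3 x y z :=
      ⟨Real.sqrt (al3 x y z), Real.sqrt_nonneg _, Real.sq_sqrt hal0⟩
    have hs1 : s < 1 := by
      by_contra hcon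
      have : 1 ≤ s := not_lt.mp hcon
      nlinarith
    have hne : 1 - al3 x y z ≠ 0 := by
      intro h0
      linarith
    have hp : ph3W x y z * (1 - al3 x y z) = cu3 x y z - al3 x y z ^ 2 := by
      rw [ph3_eqW x y z h h1]
      field_simp
    rw [← hs2] at hp hcu hP
    have hs3 : 0 ≤ s ^ 3 := by positivity
    have habs : |cu3 x y z| ≤ s ^ 3 := by
      apply abs_le_of_sq_le_sq _ hs3
      calc cu3 x y z ^ 2 ≤ (s ^ 2) ^ 3 := hcu
        _ = (s ^ 3) ^ 2 := by ring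
    obtain ⟨hlo, hhi⟩ := abs_le.mp habs
    refine ⟨s, hs0, hs1.le, hs2, ?_, ?_, ?_, ?_⟩
    · have hpos : 0 < 1 - s := by linarith
      apply le_of_mul_le_mul_right _ hpos
      have e1 : (1 + s) * ph3W x y z * (1 - s) = ph3W x y z * (1 - s ^ 2) := by ring
      rw [e1, hp]
      nlinarith
    · have hpos : 0 < 1 + s := by linarith
      apply le_of_mul_le_mul_right _ hpos
      have e1 : (1 - s) * ph3W x y z * (1 + s) = ph3W x y z * (1 - s ^ 2) := by ring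
      rw [e1, hp]
      nlinarith
    · have hpos : 0 < 1 - s ^ 2 := by
        rw [hs2]
        linarith
      apply le_of_mul_le_mul_right _ hpos
      rw [hp]
      nlinarith
    · rw [← hs2]
      linarith

/-- `Z3 > 0` if the first vector is strictly inside and the second one is in the closed simplex. -/
theorem Z3_pos' (a0 a1 a2 b0 b1 b2 : ℝ) (ha : a0 + a1 + a2 = 0) (hb : b0 + b1 + b2 = 0)
    (ha0 : -1 < a0) (ha1 : -1 < a1) (ha2 : -1 < a2) (hb0 : -1 ≤ b0) (hb1 : -1 ≤ b1)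
    (hb2 : -1 ≤ b2) : 0 < Z3 a0 a1 a2 b0 b1 b2 := by
  have e3 : 3 * Z3 a0 a1 a2 b0 b1 b2 =
      (1 + a0) * (1 + b0) + (1 + a1) * (1 + b1) + (1 + a2) * (1 + b2) := by
    unfold Z3
    have a2e : a2 = -a0 - a1 := by linarith
    have b2e : b2 = -b0 - b1 := by linarith
    rw [a2e, b2e]
    ring
  have p0 : 0 ≤ (1 + a0) * (1 + b0) := mul_nonneg (by linarith) (by linarith)
  have p1 : 0 ≤ (1 + a1) * (1 + b1) := mul_nonneg (by linarith) (by linarith)
  have p2 : 0 ≤ (1 + a2) * (1 + b2) := mul_nonneg (by linarith) (by linarith)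
  by_contra hcon
  have hle : Z3 a0 a1 a2 b0 b1 b2 ≤ 0 := not_lt.mp hcon
  have q0 : (1 + a0) * (1 + b0) = 0 := by linarith
  have q1 : (1 + a1) * (1 + b1) = 0 := by linarith
  have q2 : (1 + a2) * (1 + b2) = 0 := by linarith
  have r0 : 1 + b0 = 0 := by
    rcases mul_eq_zero.mp q0 with hh0 | hh0
    · linarith
    · exact hh0
  have r1 : 1 + b1 = 0 := by
    rcases mul_eq_zero.mp q1 with hh0 | hh0
    · linarith
    · exact hh0
  have r2 : 1 + b2 = 0 := by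
    rcases mul_eq_zero.mp q2 with hh0 | hh0
    · linarith
    · exact hh0
  linarith

theorem hh_nonneg (x y z : ℝ) (h : x + y + z = 0) (hx : -1 ≤ x) (hy : -1 ≤ y) (hz : -1 ≤ z) :
    0 ≤ hh x y z := by
  unfold hh
  apply div_nonneg
  · exact mul_nonneg (mul_nonneg (by linarith) (by linarith)) (by linarith)
  · have := al3_le_one x y z h hx hy hz
    linarith

theorem gg_nonneg (x y z : ℝ) (h : x + y + z = 0) (hx : -1 ≤ x) (hy : -1 ≤ y) (hz : -1 ≤ z) :
    0 ≤ gg x y z := by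
  unfold gg
  have h0 := al3_nonneg x y z
  have h1 := al3_le_one x y z h hx hy hz
  exact mul_nonneg (mul_nonneg (by norm_num) h0) (by linarith)

end Vale.Agent.P154
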