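import Vale.Agent.P154.G.Dom

/-!
# P154, all `d`: the harmonic affinity is supermultiplicative

`S6 (KH a) b ≥ 6 hh a * hh b`.

`EE a b = (α0 β0 + α1 β1 + α2 β2)/3` with `α0 = (1+a1)(1+a2)`, ... (product of the two other factors).
`KH_eq`: for `Z > 0`: `KH a b = P a * P b / EE a b`, `P a = (1+a0)(1+a1)(1+a2)`: the combined vector `m i = (1+a i)(1+b i)/Z - 1` is sum-zero,
so by `pair_eq` `1 - al3 m = (∑_{i<j} (1+m i)(1+m j))/3 = EE a b / Z^2`, and `∏ (1 + m i) = P a P b / Z^3`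
(if `EE a b = 0` both sides are `0` by `div_zero`).
`EE_sum`: the sum of `EE a (g b)` over the six permutations is `6 (1 - al3 a)(1 - al3 b)` (`pair_eq` twice / ring).
`key_h`: if `P b = 0` both sides vanish.  Otherwise all `1 + b i > 0`, every `EE > 0`, `m := (1-al3 a)(1-al3 b) > 0`, and
`1/E ≥ 2/m - E/m^2` (tangent line, `(E - m)^2 ≥ 0`) summed over the six permutations gives `∑ 1/E ≥ 6/m`.
-/

namespace Vale.Agent.P154

noncomputable def EE (a0 a1 a2 b0 b1 b2 : ℝ) : ℝ :=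
  ((1 + a1) * (1 + a2) * ((1 + b1) * (1 + b2)) + (1 + a0) * (1 + a2) * ((1 + b0) * (1 + b2))
    + (1 + a0) * (1 + a1) * ((1 + b0) * (1 + b1))) / 3

theorem KH_eq (a0 a1 a2 b0 b1 b2 : ℝ) (ha : a0 + a1 + a2 = 0) (hb : b0 + b1 + b2 = 0)
    (hZ : 0 < Z3 a0 a1 a2 b0 b1 b2) :
    KH a0 a1 a2 b0 b1 b2 =
      (1 + a0) * (1 + a1) * (1 + a2) * ((1 + b0) * (1 + b1) * (1 + b2)) / EE a0 a1 a2 b0 b1 b2 := by
  set Z := Z3 a0 a1 a2 b0 b1 b2 with hZdef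
  have hZne : Z ≠ 0 := ne_of_gt hZ
  have hZ3 : (1 + a0) * (1 + b0) + (1 + a1) * (1 + b1) + (1 + a2) * (1 + b2) = 3 * Z := by
    rw [hZdef]
    unfold Z3
    linear_combination ha + hb
  have hsum : ((1 + a0) * (1 + b0) / Z - 1) + ((1 + a1) * (1 + b1) / Z - 1)
      + ((1 + a2) * (1 + b2) / Z - 1) = 0 := by
    have : ((1 + a0) * (1 + b0) / Z - 1) + ((1 + a1) * (1 + b1) / Z - 1)
      + ((1 + a2) * (1 + b2) / Z - 1)
      = ((1 + a0) * (1 + b0) + (1 + a1) * (1 + b1) + (1 + a2) * (1 + b2)) / Z - 3 := by ring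
    rw [this, hZ3]
    field_simp
    ring
  have hpair := pair_eq _ _ _ hsum
  have h1 : 1 - al3 ((1 + a0) * (1 + b0) / Z - 1) ((1 + a1) * (1 + b1) / Z - 1)
      ((1 + a2) * (1 + b2) / Z - 1) = EE a0 a1 a2 b0 b1 b2 / Z ^ 2 := by
    have h2 : 3 * (1 - al3 ((1 + a0) * (1 + b0) / Z - 1) ((1 + a1) * (1 + b1) / Z - 1)
      ((1 + a2) * (1 + b2) / Z - 1)) = 3 * (EE a0 a1 a2 b0 b1 b2 / Z ^ 2) := by
      rw [← hpair]
      unfold EE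
      field_simp
      ring
    linarith
  unfold KH hh
  rw [← hZdef, h1]
  by_cases hE : EE a0 a1 a2 b0 b1 b2 = 0
  · rw [hE]
    simp
  · field_simp
    ring

theorem EE_sum (a0 a1 a2 b0 b1 b2 : ℝ) (ha : a0 + a1 + a2 = 0) (hb : b0 + b1 + b2 = 0) :
    S6 (EE a0 a1 a2) b0 b1 b2 = 6 * ((1 - al3 a0 a1 a2) * (1 - al3 b0 b1 b2)) := by
  obtain rfl : a2 = -a0 - a1 := by linarith
  obtain rfl : b2 = -b0 - b1 := by linarith
  unfold S6 EE al3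
  ring

theorem inv_tangent (E m : ℝ) (hE : 0 < E) (hm : 0 < m) : 2 / m - E / m ^ 2 ≤ 1 / E := by
  have h : 1 / E - (2 / m - E / m ^ 2) = (E - m) ^ 2 / (E * m ^ 2) := by
    field_simp
    ring
  have h2 : 0 ≤ (E - m) ^ 2 / (E * m ^ 2) := by positivity
  linarith

theorem Z3_pos_aux (a0 a1 a2 b0 b1 b2 : ℝ) (ha : a0 + a1 + a2 = 0) (hb : b0 + b1 + b2 = 0)
    (ha0 : -1 < a0) (ha1 : -1 < a1) (ha2 : -1 < a2)
    (hb0 : -1 ≤ b0) (hb1 : -1 ≤ b1) (hb2 : -1 ≤ b2) : 0 < Z3 a0 a1 a2 b0 b1 b2 := by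
  have hZ3 : 3 * Z3 a0 a1 a2 b0 b1 b2
      = (1 + a0) * (1 + b0) + (1 + a1) * (1 + b1) + (1 + a2) * (1 + b2) := by
    unfold Z3
    linear_combination (-1 : ℝ) * ha - hb
  have p0 : 0 ≤ (1 + a0) * (1 + b0) := mul_nonneg (by linarith) (by linarith)
  have p1 : 0 ≤ (1 + a1) * (1 + b1) := mul_nonneg (by linarith) (by linarith)
  have p2 : 0 ≤ (1 + a2) * (1 + b2) := mul_nonneg (by linarith) (by linarith)
  by_contra hcon
  have hle : Z3 a0 a1 a2 b0 b1 b2 ≤ 0 := not_lt.mp hcon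
  have e0 : (1 + a0) * (1 + b0) = 0 := by linarith
  have e1 : (1 + a1) * (1 + b1) = 0 := by linarith
  have e2 : (1 + a2) * (1 + b2) = 0 := by linarith
  have f0 : 1 + b0 = 0 := by
    rcases mul_eq_zero.mp e0 with h | h
    · linarith
    · exact h
  have f1 : 1 + b1 = 0 := by
    rcases mul_eq_zero.mp e1 with h | h
    · linarith
    · exact h
  have f2 : 1 + b2 = 0 := by
    rcases mul_eq_zero.mp e2 with h | h
    · linarith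
    · exact h
  linarith

theorem EE_pos_aux (a0 a1 a2 b0 b1 b2 : ℝ)
    (ha0 : -1 < a0) (ha1 : -1 < a1) (ha2 : -1 < a2)
    (hb0 : -1 < b0) (hb1 : -1 < b1) (hb2 : -1 < b2) : 0 < EE a0 a1 a2 b0 b1 b2 := by
  unfold EE
  have A0 : 0 < 1 + a0 := by linarith
  have A1 : 0 < 1 + a1 := by linarith
  have A2 : 0 < 1 + a2 := by linarith
  have B0 : 0 < 1 + b0 := by linarith
  have B1 : 0 < 1 + b1 := by linarith
  have B2 : 0 < 1 + b2 := by linarith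
  positivity

theorem one_sub_al3_pos_aux (a0 a1 a2 : ℝ) (ha : a0 + a1 + a2 = 0)
    (ha0 : -1 < a0) (ha1 : -1 < a1) (ha2 : -1 < a2) : 0 < 1 - al3 a0 a1 a2 := by
  have h := pair_eq a0 a1 a2 ha
  have A0 : 0 < 1 + a0 := by linarith
  have A1 : 0 < 1 + a1 := by linarith
  have A2 : 0 < 1 + a2 := by linarith
  have : 0 < (1 + a0) * (1 + a1) + (1 + a0) * (1 + a2) + (1 + a1) * (1 + a2) := by positivity
  linarith

theorem key_h (a0 a1 a2 b0 b1 b2 : ℝ) (ha : a0 + a1 + a2 = 0) (hb : b0 + b1 + b2 = 0)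
    (ha0 : -1 < a0) (ha1 : -1 < a1) (ha2 : -1 < a2)
    (hb0 : -1 ≤ b0) (hb1 : -1 ≤ b1) (hb2 : -1 ≤ b2) :
    6 * (hh a0 a1 a2 * hh b0 b1 b2) ≤ S6 (KH a0 a1 a2) b0 b1 b2 := by
  set Pa := (1 + a0) * (1 + a1) * (1 + a2) with hPa
  set Pb := (1 + b0) * (1 + b1) * (1 + b2) with hPb
  have k1 : KH a0 a1 a2 b0 b1 b2 = Pa * Pb / EE a0 a1 a2 b0 b1 b2 :=
    KH_eq a0 a1 a2 b0 b1 b2 ha hb (Z3_pos_aux _ _ _ _ _ _ ha hb ha0 ha1 ha2 hb0 hb1 hb2)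
  have k2 : KH a0 a1 a2 b1 b2 b0 = Pa * Pb / EE a0 a1 a2 b1 b2 b0 := by
    rw [KH_eq a0 a1 a2 b1 b2 b0 ha (by linarith)
      (Z3_pos_aux _ _ _ _ _ _ ha (by linarith) ha0 ha1 ha2 hb1 hb2 hb0)]
    congr 1
    rw [hPa, hPb]; ring
  have k3 : KH a0 a1 a2 b2 b0 b1 = Pa * Pb / EE a0 a1 a2 b2 b0 b1 := by
    rw [KH_eq a0 a1 a2 b2 b0 b1 ha (by linarith)
      (Z3_pos_aux _ _ _ _ _ _ ha (by linarith) ha0 ha1 ha2 hb2 hb0 hb1)]
    congr 1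
    rw [hPa, hPb]; ring
  have k4 : KH a0 a1 a2 b0 b2 b1 = Pa * Pb / EE a0 a1 a2 b0 b2 b1 := by
    rw [KH_eq a0 a1 a2 b0 b2 b1 ha (by linarith)
      (Z3_pos_aux _ _ _ _ _ _ ha (by linarith) ha0 ha1 ha2 hb0 hb2 hb1)]
    congr 1
    rw [hPa, hPb]; ring
  have k5 : KH a0 a1 a2 b2 b1 b0 = Pa * Pb / EE a0 a1 a2 b2 b1 b0 := by
    rw [KH_eq a0 a1 a2 b2 b1 b0 ha (by linarith)
      (Z3_pos_aux _ _ _ _ _ _ ha (by linarith) ha0 ha1 ha2 hb2 hb1 hb0)]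
    congr 1
    rw [hPa, hPb]; ring
  have k6 : KH a0 a1 a2 b1 b0 b2 = Pa * Pb / EE a0 a1 a2 b1 b0 b2 := by
    rw [KH_eq a0 a1 a2 b1 b0 b2 ha (by linarith)
      (Z3_pos_aux _ _ _ _ _ _ ha (by linarith) ha0 ha1 ha2 hb1 hb0 hb2)]
    congr 1
    rw [hPa, hPb]; ring
  have hS : S6 (KH a0 a1 a2) b0 b1 b2 = Pa * Pb * (1 / EE a0 a1 a2 b0 b1 b2
      + 1 / EE a0 a1 a2 b1 b2 b0 + 1 / EE a0 a1 a2 b2 b0 b1 + 1 / EE a0 a1 a2 b0 b2 b1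
      + 1 / EE a0 a1 a2 b2 b1 b0 + 1 / EE a0 a1 a2 b1 b0 b2) := by
    unfold S6
    rw [k1, k2, k3, k4, k5, k6]
    ring
  have hhh : hh a0 a1 a2 * hh b0 b1 b2
      = Pa * Pb * (1 / ((1 - al3 a0 a1 a2) * (1 - al3 b0 b1 b2))) := by
    unfold hh
    rw [← hPa, ← hPb]
    rw [div_mul_div_comm]
    ring
  rw [hS, hhh]
  by_cases hPb0 : Pb = 0
  · rw [hPb0]; simp
  · have B0 : -1 < b0 := by
      rcases eq_or_lt_of_le hb0 with h | h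
      · exfalso; apply hPb0; rw [hPb, ← h]; ring
      · exact h
    have B1 : -1 < b1 := by
      rcases eq_or_lt_of_le hb1 with h | h
      · exfalso; apply hPb0; rw [hPb, ← h]; ring
      · exact h
    have B2 : -1 < b2 := by
      rcases eq_or_lt_of_le hb2 with h | h
      · exfalso; apply hPb0; rw [hPb, ← h]; ring
      · exact h
    have hPapos : 0 < Pa := by
      rw [hPa]
      exact mul_pos (mul_pos (by linarith) (by linarith)) (by linarith)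
    have hPbpos : 0 < Pb := by
      rw [hPb]
      exact mul_pos (mul_pos (by linarith) (by linarith)) (by linarith)
    set m := (1 - al3 a0 a1 a2) * (1 - al3 b0 b1 b2) with hm
    have hmpos : 0 < m :=
      mul_pos (one_sub_al3_pos_aux _ _ _ ha ha0 ha1 ha2) (one_sub_al3_pos_aux _ _ _ hb B0 B1 B2)
    have t1 := inv_tangent _ m (EE_pos_aux a0 a1 a2 b0 b1 b2 ha0 ha1 ha2 B0 B1 B2) hmpos
    have t2 := inv_tangent _ m (EE_pos_aux a0 a1 a2 b1 b2 b0 ha0 ha1 ha2 B1 B2 B0) hmpos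
    have t3 := inv_tangent _ m (EE_pos_aux a0 a1 a2 b2 b0 b1 ha0 ha1 ha2 B2 B0 B1) hmpos
    have t4 := inv_tangent _ m (EE_pos_aux a0 a1 a2 b0 b2 b1 ha0 ha1 ha2 B0 B2 B1) hmpos
    have t5 := inv_tangent _ m (EE_pos_aux a0 a1 a2 b2 b1 b0 ha0 ha1 ha2 B2 B1 B0) hmpos
    have t6 := inv_tangent _ m (EE_pos_aux a0 a1 a2 b1 b0 b2 ha0 ha1 ha2 B1 B0 B2) hmpos
    have hsum := EE_sum a0 a1 a2 b0 b1 b2 ha hb
    unfold S6 at hsum
    rw [← hm] at hsum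
    have hsum2 : (EE a0 a1 a2 b0 b1 b2 + EE a0 a1 a2 b1 b2 b0 + EE a0 a1 a2 b2 b0 b1
        + EE a0 a1 a2 b0 b2 b1 + EE a0 a1 a2 b2 b1 b0 + EE a0 a1 a2 b1 b0 b2) / m ^ 2 = 6 / m := by
      rw [hsum]
      field_simp
    have hfin : 6 * (1 / m) ≤ 1 / EE a0 a1 a2 b0 b1 b2
      + 1 / EE a0 a1 a2 b1 b2 b0 + 1 / EE a0 a1 a2 b2 b0 b1 + 1 / EE a0 a1 a2 b0 b2 b1
      + 1 / EE a0 a1 a2 b2 b1 b0 + 1 / EE a0 a1 a2 b1 b0 b2 := by
      have e : 6 * (1 / m) = 6 * (2 / m) - (EE a0 a1 a2 b0 b1 b2 + EE a0 a1 a2 b1 b2 b0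
        + EE a0 a1 a2 b2 b0 b1 + EE a0 a1 a2 b0 b2 b1 + EE a0 a1 a2 b2 b1 b0
        + EE a0 a1 a2 b1 b0 b2) / m ^ 2 := by
        rw [hsum2]; ring
      rw [e]
      have e2 : (EE a0 a1 a2 b0 b1 b2 + EE a0 a1 a2 b1 b2 b0
        + EE a0 a1 a2 b2 b0 b1 + EE a0 a1 a2 b0 b2 b1 + EE a0 a1 a2 b2 b1 b0
        + EE a0 a1 a2 b1 b0 b2) / m ^ 2 = EE a0 a1 a2 b0 b1 b2 / m ^ 2
        + EE a0 a1 a2 b1 b2 b0 / m ^ 2 + EE a0 a1 a2 b2 b0 b1 / m ^ 2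
        + EE a0 a1 a2 b0 b2 b1 / m ^ 2 + EE a0 a1 a2 b2 b1 b0 / m ^ 2
        + EE a0 a1 a2 b1 b0 b2 / m ^ 2 := by ring
      rw [e2]
      linarith
    have hPP : 0 < Pa * Pb := mul_pos hPapos hPbpos
    calc 6 * (Pa * Pb * (1 / m)) = Pa * Pb * (6 * (1 / m)) := by ring
      _ ≤ _ := mul_le_mul_of_nonneg_left hfin hPP.le

end Vale.Agent.P154
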