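import Vale.Agent.P154.G.Dom

/-!
# P154, all `d`: the linear-estimator lower bound

`S6 (K2 a) b ≥ 6 (al + be - 2 al be)`.

Termwise (`lin_term`): `K2 a b = N2 a b / Z` (`K2_eq`) and with `n i = (1+a i)(1+b i) - Z`, `N2 = (n0^2+n1^2+n2^2)/6`; for every vector
`τ`:  `0 ≤ ∑ (n i - Z τ i)^2 / 6` gives `N2 / Z ≥ 2 (∑ n i τ i)/6 - Z (∑ τ i^2)/6`.  Take `τ i = x * a i + y * b i`.
`lin_sum` (polynomial identity, sum-zero vectors): the sum over the six permutations of `b` of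
`2 (∑ n i τ i)/6 - Z (∑ τ i^2)/6` is `6 (2 x al + 2 y be - x^2 al - y^2 be - 2 x y al be)`.
Finally take `x = 1 - be`, `y = 1 - al`: the value is `al + be - 2 al be + al be (al + be - 2 al be)` and
`al + be - 2 al be = al (1 - be) + be (1 - al) ≥ 0` (`al3_le_one`, `al3_nonneg`).
-/

namespace Vale.Agent.P154

/-- the polynomial lower bound of one term -/
noncomputable def linT (x y a0 a1 a2 b0 b1 b2 : ℝ) : ℝ :=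
  2 * ((((1 + a0) * (1 + b0) - Z3 a0 a1 a2 b0 b1 b2) * (x * a0 + y * b0)
      + ((1 + a1) * (1 + b1) - Z3 a0 a1 a2 b0 b1 b2) * (x * a1 + y * b1)
      + ((1 + a2) * (1 + b2) - Z3 a0 a1 a2 b0 b1 b2) * (x * a2 + y * b2)) / 6)
    - Z3 a0 a1 a2 b0 b1 b2 * (((x * a0 + y * b0) ^ 2 + (x * a1 + y * b1) ^ 2 + (x * a2 + y * b2) ^ 2) / 6)

theorem lin_term (x y a0 a1 a2 b0 b1 b2 : ℝ) (ha : a0 + a1 + a2 = 0) (hb : b0 + b1 + b2 = 0)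
    (hZ : 0 < Z3 a0 a1 a2 b0 b1 b2) :
    linT x y a0 a1 a2 b0 b1 b2 ≤ K2 a0 a1 a2 b0 b1 b2 := by
  rw [K2_eq a0 a1 a2 b0 b1 b2 ha hb hZ]
  have hsum : (1 + a0) * (1 + b0) + (1 + a1) * (1 + b1) + (1 + a2) * (1 + b2)
      = 3 * Z3 a0 a1 a2 b0 b1 b2 := by
    unfold Z3
    linear_combination ha + hb
  unfold linT N2
  generalize Z3 a0 a1 a2 b0 b1 b2 = Z at hZ hsum ⊢
  rw [le_div_iff₀ hZ]
  generalize (1 + a0) * (1 + b0) = p0 at hsum ⊢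
  generalize (1 + a1) * (1 + b1) = p1 at hsum ⊢
  generalize (1 + a2) * (1 + b2) = p2 at hsum ⊢
  generalize x * a0 + y * b0 = t0
  generalize x * a1 + y * b1 = t1
  generalize x * a2 + y * b2 = t2
  have key : (p0 ^ 2 + p1 ^ 2 + p2 ^ 2 - 3 * Z ^ 2) / 6
      - (2 * (((p0 - Z) * t0 + (p1 - Z) * t1 + (p2 - Z) * t2) / 6)
        - Z * ((t0 ^ 2 + t1 ^ 2 + t2 ^ 2) / 6)) * Z
      = ((p0 - Z - Z * t0) ^ 2 + (p1 - Z - Z * t1) ^ 2 + (p2 - Z - Z * t2) ^ 2) / 6 := by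
    linear_combination (Z / 3) * hsum
  have hpos : 0 ≤ ((p0 - Z - Z * t0) ^ 2 + (p1 - Z - Z * t1) ^ 2 + (p2 - Z - Z * t2) ^ 2) / 6 := by
    positivity
  linarith

theorem lin_sum (x y a0 a1 a2 b0 b1 b2 : ℝ) (ha : a0 + a1 + a2 = 0) (hb : b0 + b1 + b2 = 0) :
    S6 (linT x y a0 a1 a2) b0 b1 b2 =
      6 * (2 * x * al3 a0 a1 a2 + 2 * y * al3 b0 b1 b2 - x ^ 2 * al3 a0 a1 a2 - y ^ 2 * al3 b0 b1 b2
        - 2 * x * y * al3 a0 a1 a2 * al3 b0 b1 b2) := by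
  obtain rfl : a2 = -a0 - a1 := by linarith
  obtain rfl : b2 = -b0 - b1 := by linarith
  unfold S6 linT Z3 al3
  ring

/-- the termwise bound summed over the six permutations -/
theorem S6_lin_le (x y a0 a1 a2 b0 b1 b2 : ℝ) (ha : a0 + a1 + a2 = 0) (hb : b0 + b1 + b2 = 0)
    (ha0 : -1 < a0) (ha1 : -1 < a1) (ha2 : -1 < a2)
    (hb0 : -1 ≤ b0) (hb1 : -1 ≤ b1) (hb2 : -1 ≤ b2) :
    S6 (linT x y a0 a1 a2) b0 b1 b2 ≤ S6 (K2 a0 a1 a2) b0 b1 b2 := by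
  have t1 := lin_term x y a0 a1 a2 b0 b1 b2 ha hb
    (Z3_pos' _ _ _ _ _ _ ha hb ha0 ha1 ha2 hb0 hb1 hb2)
  have t2 := lin_term x y a0 a1 a2 b1 b2 b0 ha (by linarith)
    (Z3_pos' _ _ _ _ _ _ ha (by linarith) ha0 ha1 ha2 hb1 hb2 hb0)
  have t3 := lin_term x y a0 a1 a2 b2 b0 b1 ha (by linarith)
    (Z3_pos' _ _ _ _ _ _ ha (by linarith) ha0 ha1 ha2 hb2 hb0 hb1)
  have t4 := lin_term x y a0 a1 a2 b0 b2 b1 ha (by linarith)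
    (Z3_pos' _ _ _ _ _ _ ha (by linarith) ha0 ha1 ha2 hb0 hb2 hb1)
  have t5 := lin_term x y a0 a1 a2 b2 b1 b0 ha (by linarith)
    (Z3_pos' _ _ _ _ _ _ ha (by linarith) ha0 ha1 ha2 hb2 hb1 hb0)
  have t6 := lin_term x y a0 a1 a2 b1 b0 b2 ha (by linarith)
    (Z3_pos' _ _ _ _ _ _ ha (by linarith) ha0 ha1 ha2 hb1 hb0 hb2)
  unfold S6
  linarith

theorem key_l (a0 a1 a2 b0 b1 b2 : ℝ) (ha : a0 + a1 + a2 = 0) (hb : b0 + b1 + b2 = 0)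
    (ha0 : -1 < a0) (ha1 : -1 < a1) (ha2 : -1 < a2)
    (hb0 : -1 ≤ b0) (hb1 : -1 ≤ b1) (hb2 : -1 ≤ b2) :
    6 * (al3 a0 a1 a2 + al3 b0 b1 b2 - 2 * al3 a0 a1 a2 * al3 b0 b1 b2) ≤
      S6 (K2 a0 a1 a2) b0 b1 b2 := by
  have hS := S6_lin_le (1 - al3 b0 b1 b2) (1 - al3 a0 a1 a2) a0 a1 a2 b0 b1 b2 ha hb ha0 ha1 ha2
    hb0 hb1 hb2
  rw [lin_sum _ _ a0 a1 a2 b0 b1 b2 ha hb] at hS
  refine le_trans ?_ hS
  have h1 := al3_nonneg a0 a1 a2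
  have h2 := al3_nonneg b0 b1 b2
  have h3 := al3_le_one a0 a1 a2 ha ha0.le ha1.le ha2.le
  have h4 := al3_le_one b0 b1 b2 hb hb0 hb1 hb2
  set al := al3 a0 a1 a2
  set be := al3 b0 b1 b2
  have h5 : 0 ≤ al * be := mul_nonneg h1 h2
  have h6 : 0 ≤ al * (1 - be) + be * (1 - al) :=
    add_nonneg (mul_nonneg h1 (by linarith)) (mul_nonneg h2 (by linarith))
  have h7 := mul_nonneg h5 h6
  nlinarith [h7]

/-- more information: take `x = 1`, `y = 0` in `lin_term`, `lin_sum` -/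
theorem key_mono (a0 a1 a2 b0 b1 b2 : ℝ) (ha : a0 + a1 + a2 = 0) (hb : b0 + b1 + b2 = 0)
    (ha0 : -1 < a0) (ha1 : -1 < a1) (ha2 : -1 < a2)
    (hb0 : -1 ≤ b0) (hb1 : -1 ≤ b1) (hb2 : -1 ≤ b2) :
    6 * al3 a0 a1 a2 ≤ S6 (K2 a0 a1 a2) b0 b1 b2 := by
  have hS := S6_lin_le 1 0 a0 a1 a2 b0 b1 b2 ha hb ha0 ha1 ha2 hb0 hb1 hb2
  rw [lin_sum _ _ a0 a1 a2 b0 b1 b2 ha hb] at hS
  refine le_trans (le_of_eq ?_) hS
  ring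

end Vale.Agent.P154
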