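import Vale.Agent.P154.G.Dom

/-!
# P154, all `d`: scaling an experiment, combining two different experiments

* `Good.scale`: the channel multiplies the deviations by `lam`; `rot`/`swp` from `h.rot (fun x y z => f (lam*x) (lam*y) (lam*z))`.
* `Good.mergeW`: copy of `Good.step` (file `FamStep.lean`) for two different families and without the factor `lam`:
  `(w, e)` on `ι` strictly inside the simplex, `(v, f)` on `κ`.  `ZMW > 0` by `Z3_pos'`.
  `rot2'`, `swp2'` are the two-family versions of `Good.rot2`, `Good.swp2`.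
-/

namespace Vale.Agent.P154

open Finset

variable {ι κ : Type} [Fintype ι] [Fintype κ] {w : ι → ℝ} {e : ι → Fin 3 → ℝ}
  {v : κ → ℝ} {f : κ → Fin 3 → ℝ}

theorem Good.scale (h : Good w e) (lam : ℝ) (h0 : 0 ≤ lam) (h1 : lam ≤ 1) :
    Good w (fun η i => lam * e η i) := by
  refine ⟨h.pos, h.tot, ?_, ?_, ?_, ?_⟩
  · intro η
    have := h.zero η
    have e1 : lam * e η 0 + lam * e η 1 + lam * e η 2 = lam * (e η 0 + e η 1 + e η 2) := by ring
    rw [e1, this, mul_zero]
  · intro η i
    have := h.ge η i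
    nlinarith
  · intro g
    exact h.rot (fun x y z => g (lam * x) (lam * y) (lam * z))
  · intro g
    exact h.swp (fun x y z => g (lam * x) (lam * y) (lam * z))

theorem Good.scale_strict (h : Good w e) (lam : ℝ) (h0 : 0 ≤ lam) (h1 : lam < 1) (η : ι) (i : Fin 3) :
    -1 < lam * e η i := by
  have := h.ge η i
  nlinarith

theorem Xf_scale (w : ι → ℝ) (e : ι → Fin 3 → ℝ) (lam : ℝ) :
    Xf w (fun η i => lam * e η i) = lam ^ 2 * Xf w e := by
  unfold Xf
  rw [Finset.mul_sum]
  apply Finset.sum_congr rfl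
  intro η _
  rw [al3_smul]
  ring

theorem Good.ZM_pos (h : Good w e) (hs : ∀ η i, -1 < e η i) (h' : Good v f) (p : ι × κ) :
    0 < ZMW e f p := by
  unfold ZMW
  exact Z3_pos' _ _ _ _ _ _ (h.zero p.1) (h'.zero p.2) (hs p.1 0) (hs p.1 1) (hs p.1 2)
    (h'.ge p.2 0) (h'.ge p.2 1) (h'.ge p.2 2)

theorem rot2' (h : Good w e) (h' : Good v f) (H : ℝ → ℝ → ℝ → ℝ → ℝ → ℝ → ℝ) :
    ∑ x, ∑ y, w x * v y * H (e x 0) (e x 1) (e x 2) (f y 0) (f y 1) (f y 2) =
      ∑ x, ∑ y, w x * v y * H (e x 1) (e x 2) (e x 0) (f y 1) (f y 2) (f y 0) := by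
  calc ∑ x, ∑ y, w x * v y * H (e x 0) (e x 1) (e x 2) (f y 0) (f y 1) (f y 2)
      = ∑ x, w x * ∑ y, v y * H (e x 0) (e x 1) (e x 2) (f y 0) (f y 1) (f y 2) := by
        apply Finset.sum_congr rfl
        intro x _
        rw [Finset.mul_sum]
        apply Finset.sum_congr rfl
        intro y _
        ring
    _ = ∑ x, w x * ∑ y, v y * H (e x 0) (e x 1) (e x 2) (f y 1) (f y 2) (f y 0) := by
        apply Finset.sum_congr rfl
        intro x _
        rw [h'.rot (fun a b c => H (e x 0) (e x 1) (e x 2) a b c)]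
    _ = ∑ y, v y * ∑ x, w x * H (e x 0) (e x 1) (e x 2) (f y 1) (f y 2) (f y 0) := by
        simp only [Finset.mul_sum]
        rw [Finset.sum_comm]
        apply Finset.sum_congr rfl
        intro y _
        apply Finset.sum_congr rfl
        intro x _
        ring
    _ = ∑ y, v y * ∑ x, w x * H (e x 1) (e x 2) (e x 0) (f y 1) (f y 2) (f y 0) := by
        apply Finset.sum_congr rfl
        intro y _
        rw [h.rot (fun a b c => H a b c (f y 1) (f y 2) (f y 0))]
    _ = ∑ x, ∑ y, w x * v y * H (e x 1) (e x 2) (e x 0) (f y 1) (f y 2) (f y 0) := by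
        simp only [Finset.mul_sum]
        rw [Finset.sum_comm]
        apply Finset.sum_congr rfl
        intro y _
        apply Finset.sum_congr rfl
        intro x _
        ring

theorem swp2' (h : Good w e) (h' : Good v f) (H : ℝ → ℝ → ℝ → ℝ → ℝ → ℝ → ℝ) :
    ∑ x, ∑ y, w x * v y * H (e x 0) (e x 1) (e x 2) (f y 0) (f y 1) (f y 2) =
      ∑ x, ∑ y, w x * v y * H (e x 0) (e x 2) (e x 1) (f y 0) (f y 2) (f y 1) := by
  calc ∑ x, ∑ y, w x * v y * H (e x 0) (e x 1) (e x 2) (f y 0) (f y 1) (f y 2)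
      = ∑ x, w x * ∑ y, v y * H (e x 0) (e x 1) (e x 2) (f y 0) (f y 1) (f y 2) := by
        apply Finset.sum_congr rfl
        intro x _
        rw [Finset.mul_sum]
        apply Finset.sum_congr rfl
        intro y _
        ring
    _ = ∑ x, w x * ∑ y, v y * H (e x 0) (e x 1) (e x 2) (f y 0) (f y 2) (f y 1) := by
        apply Finset.sum_congr rfl
        intro x _
        rw [h'.swp (fun a b c => H (e x 0) (e x 1) (e x 2) a b c)]
    _ = ∑ y, v y * ∑ x, w x * H (e x 0) (e x 1) (e x 2) (f y 0) (f y 2) (f y 1) := by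
        simp only [Finset.mul_sum]
        rw [Finset.sum_comm]
        apply Finset.sum_congr rfl
        intro y _
        apply Finset.sum_congr rfl
        intro x _
        ring
    _ = ∑ y, v y * ∑ x, w x * H (e x 0) (e x 2) (e x 1) (f y 0) (f y 2) (f y 1) := by
        apply Finset.sum_congr rfl
        intro y _
        rw [h.swp (fun a b c => H a b c (f y 0) (f y 2) (f y 1))]
    _ = ∑ x, ∑ y, w x * v y * H (e x 0) (e x 2) (e x 1) (f y 0) (f y 2) (f y 1) := by
        simp only [Finset.mul_sum]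
        rw [Finset.sum_comm]
        apply Finset.sum_congr rfl
        intro y _
        apply Finset.sum_congr rfl
        intro x _
        ring

/-- the kernel of the merged experiment as a function of six real variables -/
noncomputable def mergeKerW (g : ℝ → ℝ → ℝ → ℝ) (x0 x1 x2 y0 y1 y2 : ℝ) : ℝ :=
  Z3 x0 x1 x2 y0 y1 y2 *
    g ((1 + x0) * (1 + y0) / Z3 x0 x1 x2 y0 y1 y2 - 1)
      ((1 + x1) * (1 + y1) / Z3 x0 x1 x2 y0 y1 y2 - 1)
      ((1 + x2) * (1 + y2) / Z3 x0 x1 x2 y0 y1 y2 - 1)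

theorem sum_wMW (w : ι → ℝ) (e : ι → Fin 3 → ℝ) (v : κ → ℝ) (f : κ → Fin 3 → ℝ)
    (g : ℝ → ℝ → ℝ → ℝ) :
    ∑ p, wMW w e v f p * g (eMW e f p 0) (eMW e f p 1) (eMW e f p 2) =
      ∑ x, ∑ y, w x * v y * mergeKerW g (e x 0) (e x 1) (e x 2) (f y 0) (f y 1) (f y 2) := by
  rw [Fintype.sum_prod_type]
  apply Finset.sum_congr rfl
  intro x _
  apply Finset.sum_congr rfl
  intro y _
  simp only [wMW, eMW, ZMW, mergeKerW]
  ring

theorem Good.mergeW (h : Good w e) (hs : ∀ η i, -1 < e η i) (h' : Good v f) :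
    Good (wMW w e v f) (eMW e f) := by
  have hZ := h.ZM_pos hs h'
  obtain ⟨m0, m1, m2⟩ := h.mean_zero
  refine ⟨?_, ?_, ?_, ?_, ?_, ?_⟩
  · intro p
    unfold wMW
    exact mul_pos (mul_pos (h.pos _) (h'.pos _)) (hZ p)
  · rw [Fintype.sum_prod_type]
    have key : ∑ x, ∑ y, wMW w e v f (x, y) =
        (∑ x, w x) * (∑ y, v y) + 1 / 3 *
          ((∑ x, w x * e x 0) * (∑ y, v y * f y 0) + (∑ x, w x * e x 1) * (∑ y, v y * f y 1)
            + (∑ x, w x * e x 2) * (∑ y, v y * f y 2)) := by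
      rw [Finset.sum_mul_sum, Finset.sum_mul_sum, Finset.sum_mul_sum, Finset.sum_mul_sum,
        ← Finset.sum_add_distrib, ← Finset.sum_add_distrib, Finset.mul_sum,
        ← Finset.sum_add_distrib]
      apply Finset.sum_congr rfl
      intro x _
      rw [← Finset.sum_add_distrib, ← Finset.sum_add_distrib, Finset.mul_sum,
        ← Finset.sum_add_distrib]
      apply Finset.sum_congr rfl
      intro y _
      simp only [wMW, ZMW, Z3]
      ring
    rw [key, h.tot, h'.tot, m0, m1, m2]
    ring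
  · intro p
    have hp := hZ p
    have z1 := h.zero p.1
    have z2 := h'.zero p.2
    have e3 : (1 + e p.1 0) * (1 + f p.2 0) + (1 + e p.1 1) * (1 + f p.2 1)
        + (1 + e p.1 2) * (1 + f p.2 2) = 3 * ZMW e f p := by
      simp only [ZMW, Z3]
      have a1 : e p.1 2 = - e p.1 0 - e p.1 1 := by linarith
      have a2 : f p.2 2 = - f p.2 0 - f p.2 1 := by linarith
      rw [a1, a2]
      ring
    simp only [eMW]
    have : (1 + e p.1 0) * (1 + f p.2 0) / ZMW e f p - 1
        + ((1 + e p.1 1) * (1 + f p.2 1) / ZMW e f p - 1)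
        + ((1 + e p.1 2) * (1 + f p.2 2) / ZMW e f p - 1)
        = ((1 + e p.1 0) * (1 + f p.2 0) + (1 + e p.1 1) * (1 + f p.2 1)
        + (1 + e p.1 2) * (1 + f p.2 2)) / ZMW e f p - 3 := by ring
    rw [this, e3]
    field_simp
    ring
  · intro p i
    have hp := hZ p
    have d1 := h.ge p.1 i
    have d2 := h'.ge p.2 i
    simp only [eMW]
    have : 0 ≤ (1 + e p.1 i) * (1 + f p.2 i) / ZMW e f p := by
      apply div_nonneg _ hp.le
      apply mul_nonneg <;> linarith
    linarith
  · intro g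
    rw [sum_wMW, sum_wMW w e v f (fun a b c => g b c a), rot2' h h']
    apply Finset.sum_congr rfl
    intro x _
    apply Finset.sum_congr rfl
    intro y _
    simp only [mergeKerW, Z3_rot]
  · intro g
    rw [sum_wMW, sum_wMW w e v f (fun a b c => g a c b), swp2' h h']
    apply Finset.sum_congr rfl
    intro x _
    apply Finset.sum_congr rfl
    intro y _
    simp only [mergeKerW, Z3_swp]

end Vale.Agent.P154
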