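import Vale.Agent.P154.G.Merge
import Vale.Agent.P154.G.KeyL
import Vale.Agent.P154.G.KeyH

/-!
# P154, all `d`: the three inequalities for a combined experiment, closure of the invariant

`(w, e)` on `ι` strictly inside the simplex, `(v, f)` on `κ`, both `Good`.
`Xf_merge_eqW`, `Hf_merge_eq`: unfolding (`Fintype.sum_prod_type`), as `Xf_w2_eq` in `FamX.lean`.
For fixed `η`, `Good.six` for `(v, f)` turns `∑ y, v y * K (e η) (f y)` into `(1/6) ∑ y, v y * S6 (K (e η)) (f y)`; apply the pointwise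
inequality (`key_l`, `key_h`, `key_xgW`) and sum; all right-hand sides are bilinear, so the double sums factor
(`Finset.sum_mul_sum` / `Finset.mul_sum`), `∑ w = 1`, `∑ v = 1`.  Model: `Good.inner_le`, `Good.X_step` in `FamX.lean`.
`PfW w e = ∑ w * ph3W = (HfW - 1 + 2 Xf)/2` (uses `∑ w = 1`), `GfW w e = ∑ w * gg ≥ 0`.
-/

namespace Vale.Agent.P154

open Finset

variable {ι κ : Type} [Fintype ι] [Fintype κ] {w : ι → ℝ} {e : ι → Fin 3 → ℝ}
  {v : κ → ℝ} {f : κ → Fin 3 → ℝ}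

noncomputable def PfW (w : ι → ℝ) (e : ι → Fin 3 → ℝ) : ℝ := ∑ η, w η * ph3W (e η 0) (e η 1) (e η 2)

noncomputable def GfW (w : ι → ℝ) (e : ι → Fin 3 → ℝ) : ℝ := ∑ η, w η * gg (e η 0) (e η 1) (e η 2)

theorem Good.Pf_eq (h : Good w e) : PfW w e = (HfW w e - 1 + 2 * Xf w e) / 2 := by
  have htot := h.tot
  have hexp : ∀ η, w η * ph3W (e η 0) (e η 1) (e η 2) =
      (1 / 2) * (w η * hh (e η 0) (e η 1) (e η 2)) - (1 / 2) * w η
        + w η * al3 (e η 0) (e η 1) (e η 2) := by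
    intro η; unfold ph3W; ring
  unfold PfW
  simp only [hexp]
  rw [Finset.sum_add_distrib, Finset.sum_sub_distrib, ← Finset.mul_sum, ← Finset.mul_sum, htot]
  unfold HfW Xf
  ring

theorem Good.Gf_nonneg (h : Good w e) : 0 ≤ GfW w e := by
  unfold GfW
  refine Finset.sum_nonneg fun η _ => ?_
  exact mul_nonneg (h.pos η).le (gg_nonneg _ _ _ (h.zero η) (h.ge η 0) (h.ge η 1) (h.ge η 2))

theorem Good.Hf_nonneg (h : Good w e) : 0 ≤ HfW w e := by
  unfold HfW
  refine Finset.sum_nonneg fun η _ => ?_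
  exact mul_nonneg (h.pos η).le (hh_nonneg _ _ _ (h.zero η) (h.ge η 0) (h.ge η 1) (h.ge η 2))

theorem Xf_merge_eqW (w : ι → ℝ) (e : ι → Fin 3 → ℝ) (v : κ → ℝ) (f : κ → Fin 3 → ℝ) :
    Xf (wMW w e v f) (eMW e f) = ∑ η, w η * ∑ y, v y *
      K2 (e η 0) (e η 1) (e η 2) (f y 0) (f y 1) (f y 2) := by
  unfold Xf
  rw [Fintype.sum_prod_type]
  refine Finset.sum_congr rfl fun η _ => ?_
  rw [Finset.mul_sum]
  refine Finset.sum_congr rfl fun y _ => ?_
  simp only [wMW, eMW, ZMW, K2]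
  ring

theorem Hf_merge_eq (w : ι → ℝ) (e : ι → Fin 3 → ℝ) (v : κ → ℝ) (f : κ → Fin 3 → ℝ) :
    HfW (wMW w e v f) (eMW e f) = ∑ η, w η * ∑ y, v y *
      KH (e η 0) (e η 1) (e η 2) (f y 0) (f y 1) (f y 2) := by
  unfold HfW
  rw [Fintype.sum_prod_type]
  refine Finset.sum_congr rfl fun η _ => ?_
  rw [Finset.mul_sum]
  refine Finset.sum_congr rfl fun y _ => ?_
  simp only [wMW, eMW, ZMW, KH]
  ring

/-- a pointwise lower bound for the symmetrised kernel gives a lower bound for the average -/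
theorem Good.inner_ge (h' : Good v f) (K : ℝ → ℝ → ℝ → ℝ) (L : κ → ℝ)
    (hL : ∀ y, 6 * L y ≤ S6 K (f y 0) (f y 1) (f y 2)) :
    ∑ y, v y * L y ≤ ∑ y, v y * K (f y 0) (f y 1) (f y 2) := by
  rw [h'.six K]
  have hsum := Finset.sum_le_sum (fun y (_ : y ∈ Finset.univ) =>
    mul_le_mul_of_nonneg_left (hL y) (h'.pos y).le)
  have hexp : ∑ y, v y * (6 * L y) = 6 * ∑ y, v y * L y := by
    rw [Finset.mul_sum]
    refine Finset.sum_congr rfl fun y _ => ?_
    ring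
  rw [hexp] at hsum
  linarith

theorem merge_X_low (h : Good w e) (hs : ∀ η i, -1 < e η i) (h' : Good v f) :
    Xf w e + Xf v f - 2 * Xf w e * Xf v f ≤ Xf (wMW w e v f) (eMW e f) := by
  rw [Xf_merge_eqW]
  have hin : ∀ η, al3 (e η 0) (e η 1) (e η 2) + Xf v f - 2 * al3 (e η 0) (e η 1) (e η 2) * Xf v f ≤
      ∑ y, v y * K2 (e η 0) (e η 1) (e η 2) (f y 0) (f y 1) (f y 2) := by
    intro η
    have hk := h'.inner_ge (K2 (e η 0) (e η 1) (e η 2))
      (fun y => al3 (e η 0) (e η 1) (e η 2) + al3 (f y 0) (f y 1) (f y 2)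
        - 2 * al3 (e η 0) (e η 1) (e η 2) * al3 (f y 0) (f y 1) (f y 2))
      (fun y => key_l _ _ _ _ _ _ (h.zero η) (h'.zero y) (hs η 0) (hs η 1) (hs η 2)
        (h'.ge y 0) (h'.ge y 1) (h'.ge y 2))
    refine le_trans (le_of_eq ?_) hk
    set p := al3 (e η 0) (e η 1) (e η 2)
    have hexp : ∀ y, v y * (p + al3 (f y 0) (f y 1) (f y 2) - 2 * p * al3 (f y 0) (f y 1) (f y 2)) =
        p * v y + (1 - 2 * p) * (v y * al3 (f y 0) (f y 1) (f y 2)) := by
      intro y; ring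
    simp only [hexp]
    rw [Finset.sum_add_distrib, ← Finset.mul_sum, ← Finset.mul_sum, h'.tot]
    unfold Xf
    ring
  have hsum := Finset.sum_le_sum (fun η (_ : η ∈ Finset.univ) =>
    mul_le_mul_of_nonneg_left (hin η) (h.pos η).le)
  refine le_trans (le_of_eq ?_) hsum
  set Y := Xf v f
  have hexp : ∀ η, w η * (al3 (e η 0) (e η 1) (e η 2) + Y - 2 * al3 (e η 0) (e η 1) (e η 2) * Y) =
      Y * w η + (1 - 2 * Y) * (w η * al3 (e η 0) (e η 1) (e η 2)) := by
    intro η; ring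
  simp only [hexp]
  rw [Finset.sum_add_distrib, ← Finset.mul_sum, ← Finset.mul_sum, h.tot]
  unfold Xf
  ring

theorem merge_X_mono (h : Good w e) (hs : ∀ η i, -1 < e η i) (h' : Good v f) :
    Xf w e ≤ Xf (wMW w e v f) (eMW e f) := by
  rw [Xf_merge_eqW]
  have hin : ∀ η, al3 (e η 0) (e η 1) (e η 2) ≤
      ∑ y, v y * K2 (e η 0) (e η 1) (e η 2) (f y 0) (f y 1) (f y 2) := by
    intro η
    have hk := h'.inner_ge (K2 (e η 0) (e η 1) (e η 2))
      (fun _ => al3 (e η 0) (e η 1) (e η 2))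
      (fun y => key_mono _ _ _ _ _ _ (h.zero η) (h'.zero y) (hs η 0) (hs η 1) (hs η 2)
        (h'.ge y 0) (h'.ge y 1) (h'.ge y 2))
    refine le_trans (le_of_eq ?_) hk
    rw [← Finset.sum_mul, h'.tot]
    ring
  have hsum := Finset.sum_le_sum (fun η (_ : η ∈ Finset.univ) =>
    mul_le_mul_of_nonneg_left (hin η) (h.pos η).le)
  exact hsum

theorem merge_H (h : Good w e) (hs : ∀ η i, -1 < e η i) (h' : Good v f) :
    HfW w e * HfW v f ≤ HfW (wMW w e v f) (eMW e f) := by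
  rw [Hf_merge_eq]
  have hin : ∀ η, hh (e η 0) (e η 1) (e η 2) * HfW v f ≤
      ∑ y, v y * KH (e η 0) (e η 1) (e η 2) (f y 0) (f y 1) (f y 2) := by
    intro η
    have hk := h'.inner_ge (KH (e η 0) (e η 1) (e η 2))
      (fun y => hh (e η 0) (e η 1) (e η 2) * hh (f y 0) (f y 1) (f y 2))
      (fun y => key_h _ _ _ _ _ _ (h.zero η) (h'.zero y) (hs η 0) (hs η 1) (hs η 2)
        (h'.ge y 0) (h'.ge y 1) (h'.ge y 2))
    refine le_trans (le_of_eq ?_) hk
    unfold HfW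
    rw [Finset.mul_sum]
    refine Finset.sum_congr rfl fun y _ => ?_
    ring
  have hsum := Finset.sum_le_sum (fun η (_ : η ∈ Finset.univ) =>
    mul_le_mul_of_nonneg_left (hin η) (h.pos η).le)
  refine le_trans (le_of_eq ?_) hsum
  set Y := HfW v f
  unfold HfW
  rw [Finset.sum_mul]
  refine Finset.sum_congr rfl fun η _ => ?_
  ring

end Vale.Agent.P154
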