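import Vale.Agent.P154.G.MergeA
import Vale.Agent.P154.G.KeyXG
import Vale.Agent.P154.G.Chan

/-!
# P154, all `d`: upper bound for `Xf` of a combined experiment, closure of the invariant

* `merge_X_up`: as `merge_X_low` in `MergeA.lean` but with `key_xgW`; the right-hand side is bilinear:
  `∑∑ w v (al + be - al be/10 - ph3W a gg b - gg a ph3W b) = X + X' - X X'/10 - PfW Gf' - GfW Pf'`.
* `Inv.mergeW`: `x1 = Xf w e`, `x2 = Xf v f`, `H1 = HfW w e ≥ max 0 (1 - 2 x1)`, `H2 = HfW v f ≥ max 0 (1 - 2 x2)`; `merge_H`: `H' ≥ H1 H2 ≥ 0`;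
  `merge_X_low`: `1 - 2 x' ≤ (1 - 2 x1)(1 - 2 x2)`.  If both `1 - 2 x_i ≥ 0`: `H1 H2 ≥ (1-2x1)(1-2x2)`; if exactly one is negative:
  `(1-2x1)(1-2x2) ≤ 0 ≤ H'`; if both are negative: `x' ≥ x1 > 1/2` (`merge_X_mono`), so `1 - 2 x' < 0 ≤ H'`.
* `merge_X`: `PfW ≥ 0` is `Inv` (`Good.Pf_eq`), `GfW ≥ 0`.
* `Inv.scale`: `PfW w (lam e) ≥ lam^3 PfW w e ≥ 0` by `ph3_scale`, then `Good.Pf_eq` for the scaled family (`Good.scale`, `lam ≤ 1`).
-/

namespace Vale.Agent.P154

open Finset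

variable {ι κ : Type} [Fintype ι] [Fintype κ] {w : ι → ℝ} {e : ι → Fin 3 → ℝ}
  {v : κ → ℝ} {f : κ → Fin 3 → ℝ}

/-- the inner sum, bounded with `key_xgW` -/
theorem merge_inner_up (h : Good w e) (hs : ∀ η i, -1 < e η i) (h' : Good v f) (η : ι) :
    ∑ y, v y * K2 (e η 0) (e η 1) (e η 2) (f y 0) (f y 1) (f y 2) ≤
      al3 (e η 0) (e η 1) (e η 2) + Xf v f - 1 / 10 * al3 (e η 0) (e η 1) (e η 2) * Xf v f
        - ph3W (e η 0) (e η 1) (e η 2) * GfW v f - gg (e η 0) (e η 1) (e η 2) * PfW v f := by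
  have hsx := h'.six (fun x y z => K2 (e η 0) (e η 1) (e η 2) x y z)
  rw [hsx]
  have hterm : ∀ y, v y * S6 (fun x y z => K2 (e η 0) (e η 1) (e η 2) x y z)
        (f y 0) (f y 1) (f y 2) ≤
      v y * (6 * (al3 (e η 0) (e η 1) (e η 2) + al3 (f y 0) (f y 1) (f y 2)
        - 1 / 10 * al3 (e η 0) (e η 1) (e η 2) * al3 (f y 0) (f y 1) (f y 2)
        - ph3W (e η 0) (e η 1) (e η 2) * gg (f y 0) (f y 1) (f y 2)
        - gg (e η 0) (e η 1) (e η 2) * ph3W (f y 0) (f y 1) (f y 2))) := by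
    intro y
    have hk := key_xgW _ _ _ _ _ _ (h.zero η) (h'.zero y) (hs η 0) (hs η 1) (hs η 2)
      (h'.ge y 0) (h'.ge y 1) (h'.ge y 2)
    exact mul_le_mul_of_nonneg_left hk (h'.pos y).le
  have hsum := Finset.sum_le_sum (fun y (_ : y ∈ Finset.univ) => hterm y)
  refine (mul_le_mul_of_nonneg_left hsum (by norm_num : (0:ℝ) ≤ 1 / 6)).trans (le_of_eq ?_)
  have htot := h'.tot
  set p := al3 (e η 0) (e η 1) (e η 2)
  set q := ph3W (e η 0) (e η 1) (e η 2)
  set r := gg (e η 0) (e η 1) (e η 2)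
  have hexp : ∀ y, v y * (6 * (p + al3 (f y 0) (f y 1) (f y 2)
        - 1 / 10 * p * al3 (f y 0) (f y 1) (f y 2)
        - q * gg (f y 0) (f y 1) (f y 2)
        - r * ph3W (f y 0) (f y 1) (f y 2))) =
      (6 * p) * v y
        + (6 - 6 / 10 * p) * (v y * al3 (f y 0) (f y 1) (f y 2))
        + (-6 * q) * (v y * gg (f y 0) (f y 1) (f y 2))
        + (-6 * r) * (v y * ph3W (f y 0) (f y 1) (f y 2)) := by
    intro y; ring
  simp only [hexp]
  rw [Finset.sum_add_distrib, Finset.sum_add_distrib, Finset.sum_add_distrib, ← Finset.mul_sum,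
    ← Finset.mul_sum, ← Finset.mul_sum, ← Finset.mul_sum, htot]
  unfold Xf GfW PfW
  ring

theorem merge_X_up (h : Good w e) (hs : ∀ η i, -1 < e η i) (h' : Good v f) :
    Xf (wMW w e v f) (eMW e f) ≤
      Xf w e + Xf v f - 1 / 10 * Xf w e * Xf v f - PfW w e * GfW v f - GfW w e * PfW v f := by
  rw [Xf_merge_eqW]
  have hsum := Finset.sum_le_sum (fun η (_ : η ∈ Finset.univ) =>
    mul_le_mul_of_nonneg_left (merge_inner_up h hs h' η) (h.pos η).le)
  refine hsum.trans (le_of_eq ?_)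
  have htot := h.tot
  set X := Xf v f
  set P := PfW v f
  set Gm := GfW v f
  have hexp : ∀ η, w η * (al3 (e η 0) (e η 1) (e η 2) + X
        - 1 / 10 * al3 (e η 0) (e η 1) (e η 2) * X
        - ph3W (e η 0) (e η 1) (e η 2) * Gm - gg (e η 0) (e η 1) (e η 2) * P) =
      X * w η
        + (1 - 1 / 10 * X) * (w η * al3 (e η 0) (e η 1) (e η 2))
        + (-Gm) * (w η * ph3W (e η 0) (e η 1) (e η 2))
        + (-P) * (w η * gg (e η 0) (e η 1) (e η 2)) := by
    intro η; ring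
  simp only [hexp]
  rw [Finset.sum_add_distrib, Finset.sum_add_distrib, Finset.sum_add_distrib, ← Finset.mul_sum,
    ← Finset.mul_sum, ← Finset.mul_sum, ← Finset.mul_sum, htot]
  unfold Xf GfW PfW
  ring

/-- closure of the invariant under combination -/
theorem Inv.mergeW (h : Good w e) (hs : ∀ η i, -1 < e η i) (h' : Good v f)
    (hi : Inv w e) (hi' : Inv v f) : Inv (wMW w e v f) (eMW e f) := by
  unfold Inv at *
  have hH := merge_H h hs h'
  have hL := merge_X_low h hs h'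
  have hM := merge_X_mono h hs h'
  have n1 := h.Hf_nonneg
  have n2 := h'.Hf_nonneg
  set x1 := Xf w e
  set x2 := Xf v f
  set H1 := HfW w e
  set H2 := HfW v f
  set x' := Xf (wMW w e v f) (eMW e f)
  set H' := HfW (wMW w e v f) (eMW e f)
  have hH0 : 0 ≤ H' := le_trans (mul_nonneg n1 n2) hH
  have hprod : 1 - 2 * x' ≤ (1 - 2 * x1) * (1 - 2 * x2) := by nlinarith
  rcases le_or_gt 0 (1 - 2 * x1) with c1 | c1
  · rcases le_or_gt 0 (1 - 2 * x2) with c2 | c2
    · have : (1 - 2 * x1) * (1 - 2 * x2) ≤ H1 * H2 := mul_le_mul hi hi' c2 n1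
      linarith
    · have : (1 - 2 * x1) * (1 - 2 * x2) ≤ 0 := mul_nonpos_of_nonneg_of_nonpos c1 c2.le
      linarith
  · rcases le_or_gt 0 (1 - 2 * x2) with c2 | c2
    · have : (1 - 2 * x1) * (1 - 2 * x2) ≤ 0 := mul_nonpos_of_nonpos_of_nonneg c1.le c2
      linarith
    · linarith

/-- subadditivity with a gain on the invariant cone -/
theorem merge_X (h : Good w e) (hs : ∀ η i, -1 < e η i) (h' : Good v f)
    (hi : Inv w e) (hi' : Inv v f) :
    Xf (wMW w e v f) (eMW e f) ≤ Xf w e + Xf v f - 1 / 10 * Xf w e * Xf v f := by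
  have hu := merge_X_up h hs h'
  have p1 : 0 ≤ PfW w e := by
    rw [h.Pf_eq]; unfold Inv at hi; linarith
  have p2 : 0 ≤ PfW v f := by
    rw [h'.Pf_eq]; unfold Inv at hi'; linarith
  have g1 := h.Gf_nonneg
  have g2 := h'.Gf_nonneg
  have := mul_nonneg p1 g2
  have := mul_nonneg g1 p2
  linarith

/-- the channel preserves the invariant -/
theorem Inv.scale (h : Good w e) (hi : Inv w e) (lam : ℝ) (h0 : 0 ≤ lam) (h1 : lam < 1) :
    Inv w (fun η i => lam * e η i) := by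
  have hg := h.scale lam h0 h1.le
  have p1 : 0 ≤ PfW w e := by
    rw [h.Pf_eq]; unfold Inv at hi; linarith
  have hle : lam ^ 3 * PfW w e ≤ PfW w (fun η i => lam * e η i) := by
    unfold PfW
    rw [Finset.mul_sum]
    refine Finset.sum_le_sum fun η _ => ?_
    have := ph3_scale lam _ _ _ h0 h1 (h.zero η) (h.ge η 0) (h.ge η 1) (h.ge η 2)
    have := mul_le_mul_of_nonneg_left this (h.pos η).le
    linarith
  have p2 : 0 ≤ PfW w (fun η i => lam * e η i) :=
    le_trans (mul_nonneg (by positivity) p1) hle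
  rw [hg.Pf_eq] at p2
  unfold Inv
  linarith

end Vale.Agent.P154
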