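import Vale.Agent.P154.G.CornerHiHi
import Vale.Agent.P154.G.CornerHiLo1
import Vale.Agent.P154.G.CornerHiLo2
import Vale.Agent.P154.G.CornerLo1Hi
import Vale.Agent.P154.G.CornerLo1Lo1
import Vale.Agent.P154.G.CornerLo1Lo2
import Vale.Agent.P154.G.CornerLo2Hi
import Vale.Agent.P154.G.CornerLo2Lo1
import Vale.Agent.P154.G.CornerLo2Lo2

/-!
# P154, all `d`: the affine form `GX` is nonnegative on the domain

`GX s t φ ψ = s^2 t^2 T0 s t + φ t^2 E1 s t + ψ s^2 E1 t s` is affine in `φ` and in `ψ`; replace each of them by the end point of its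
range that is unfavourable (according to the sign of its coefficient) and use the corner inequalities.
-/

namespace Vale.Agent.P154

theorem GX_eq (s t φ ψ : ℝ) :
    GX s t φ ψ = s ^ 2 * t ^ 2 * T0 s t + t ^ 2 * (φ * E1 s t) + s ^ 2 * (ψ * E1 t s) := by
  unfold GX T0 E1 D1
  ring

/-- there are `n`, `d` (numerator and denominator of the unfavourable end point of `φ / s^2`) -/
theorem elim (s φ c : ℝ) (hs0 : 0 ≤ s) (hs1 : s ≤ 1) (h1 : (1 + s) * φ ≤ s ^ 3)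
    (h2 : -s ^ 3 ≤ (1 - s) * φ) (h3 : s ^ 2 - 1 / 2 ≤ φ) :
    (s ^ 2 * (s * c) ≤ (1 + s) * (φ * c)) ∨
    (s ≤ 1 / 2 ∧ s ^ 2 * ((-s) * c) ≤ (1 - s) * (φ * c)) ∨
    (1 / 2 ≤ s ∧ s ^ 2 * ((s ^ 2 - 1 / 2) * c) ≤ s ^ 2 * (φ * c)) := by
  rcases le_total c 0 with hc | hc
  · left
    have := mul_le_mul_of_nonpos_right h1 hc
    nlinarith
  · rcases le_total s (1 / 2) with hs | hs
    · right; left
      refine ⟨hs, ?_⟩
      have := mul_le_mul_of_nonneg_right h2 hc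
      nlinarith
    · right; right
      refine ⟨hs, ?_⟩
      have := mul_le_mul_of_nonneg_right h3 hc
      have h4 : 0 ≤ s ^ 2 := by positivity
      nlinarith [mul_le_mul_of_nonneg_left this h4]

/-- final step: from `dX dY GX ≥ s^2 t^2 Q ≥ 0`. -/
theorem fin_step (s t φ ψ nX dX nY dY : ℝ) (hdX : 0 < dX) (hdY : 0 < dY)
    (hX : s ^ 2 * (nX * E1 s t) ≤ dX * (φ * E1 s t))
    (hY : t ^ 2 * (nY * E1 t s) ≤ dY * (ψ * E1 t s))
    (hQ : 0 ≤ dX * dY * T0 s t + nX * dY * E1 s t + dX * nY * E1 t s) : 0 ≤ GX s t φ ψ := by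
  rw [GX_eq]
  have h1 : 0 ≤ s ^ 2 * t ^ 2 * (dX * dY * T0 s t + nX * dY * E1 s t + dX * nY * E1 t s) :=
    mul_nonneg (by positivity) hQ
  have h2 : 0 ≤ t ^ 2 * dY * (dX * (φ * E1 s t) - s ^ 2 * (nX * E1 s t)) :=
    mul_nonneg (by positivity) (by linarith)
  have h3 : 0 ≤ s ^ 2 * dX * (dY * (ψ * E1 t s) - t ^ 2 * (nY * E1 t s)) :=
    mul_nonneg (by positivity) (by linarith)
  have h4 : 0 ≤ dX * dY * (s ^ 2 * t ^ 2 * T0 s t + t ^ 2 * (φ * E1 s t) + s ^ 2 * (ψ * E1 t s)) := by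
    nlinarith
  exact nonneg_of_mul_nonneg_right h4 (mul_pos hdX hdY)

theorem px1 (s t φ ψ : ℝ) (hs0 : 0 ≤ s) (hs1 : s ≤ 1) (ht0 : 0 ≤ t) (ht1 : t ≤ 1)
    (h1 : (1 + s) * φ ≤ s ^ 3) (h2 : -s ^ 3 ≤ (1 - s) * φ) (h3 : s ^ 2 - 1 / 2 ≤ φ)
    (k1 : (1 + t) * ψ ≤ t ^ 3) (k2 : -t ^ 3 ≤ (1 - t) * ψ) (k3 : t ^ 2 - 1 / 2 ≤ ψ) :
    0 ≤ GX s t φ ψ := by
  rcases elim s φ (E1 s t) hs0 hs1 h1 h2 h3 with a | ⟨as, a⟩ | ⟨as, a⟩ <;>
  rcases elim t ψ (E1 t s) ht0 ht1 k1 k2 k3 with b | ⟨bs, b⟩ | ⟨bs, b⟩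
  · exact fin_step s t φ ψ s (1 + s) t (1 + t) (by linarith) (by linarith) a b
      (corner_hi_hi s t hs0 hs1 ht0 ht1)
  · exact fin_step s t φ ψ s (1 + s) (-t) (1 - t) (by linarith) (by linarith) a b
      (corner_hi_lo1 s t hs0 hs1 ht0 bs)
  · exact fin_step s t φ ψ s (1 + s) (t ^ 2 - 1 / 2) (t ^ 2) (by linarith) (by positivity) a b
      (corner_hi_lo2 s t hs0 hs1 bs ht1)
  · exact fin_step s t φ ψ (-s) (1 - s) t (1 + t) (by linarith) (by linarith) a b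
      (corner_lo1_hi s t hs0 as ht0 ht1)
  · exact fin_step s t φ ψ (-s) (1 - s) (-t) (1 - t) (by linarith) (by linarith) a b
      (corner_lo1_lo1 s t hs0 as ht0 bs)
  · exact fin_step s t φ ψ (-s) (1 - s) (t ^ 2 - 1 / 2) (t ^ 2) (by linarith) (by positivity) a b
      (corner_lo1_lo2 s t hs0 as bs ht1)
  · exact fin_step s t φ ψ (s ^ 2 - 1 / 2) (s ^ 2) t (1 + t) (by positivity) (by linarith) a b
      (corner_lo2_hi s t as hs1 ht0 ht1)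
  · exact fin_step s t φ ψ (s ^ 2 - 1 / 2) (s ^ 2) (-t) (1 - t) (by positivity) (by linarith) a b
      (corner_lo2_lo1 s t as hs1 ht0 bs)
  · exact fin_step s t φ ψ (s ^ 2 - 1 / 2) (s ^ 2) (t ^ 2 - 1 / 2) (t ^ 2) (by positivity)
      (by positivity) a b (corner_lo2_lo2 s t as hs1 bs ht1)

end Vale.Agent.P154
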